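import Vale.Agent.P233.H3.Chain
import Vale.Agent.P233.H761.RiccatiW

/-! Good sets of times; blow-up lemma. -/

open MeasureTheory Set intervalIntegral Filter Topology
open scoped ENNReal NNReal Interval

namespace Vale.Agent.P233.H3

/-- local integrability on `(0,1)` -/
def Lo (f : ℝ → ℝ) : Prop :=
  ∀ s ∈ Ioo (0 : ℝ) 1, ∀ t ∈ Ioo (0 : ℝ) 1, IntervalIntegrable f volume s t

theorem mono_good {u : ℝ → ℝ} (hu : Lo u)
    (h : ∀ᵐ s ∂(volume.restrict (Ioo (0 : ℝ) 1)), ∀ᵐ t ∂(volume.restrict (Ioo s 1)), u t ≤ u s) :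
    ∃ P : Set ℝ, (∀ᵐ t, t ∈ Ioo (0 : ℝ) 1 → t ∈ P) ∧
      ∀ s ∈ P, ∀ t ∈ P, 0 < s → s < t → t < 1 → u t ≤ u s := by
  have hLI : H761.LI 1 u := fun s t h0 h1 h2 => hu s ⟨h0, h1.trans_lt h2⟩ t ⟨h0.trans_le h1, h2⟩
  have hm : ∀ᵐ s, ∀ᵐ t, 0 < s → s < t → t < 1 → u t ≤ u s := by
    rw [ae_restrict_iff' measurableSet_Ioo] at h
    filter_upwards [h] with s hs
    by_cases h0 : s ∈ Ioo (0 : ℝ) 1
    · have h1 := hs h0
      rw [ae_restrict_iff' measurableSet_Ioo] at h1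
      filter_upwards [h1] with t ht _ h1 h2
      exact ht ⟨h1, h2⟩
    · exact ae_of_all _ fun t h1 h2 h3 => absurd ⟨h1, h2.trans h3⟩ h0
  have hc : (1 / 2 : ℝ) ∈ Ioo (0 : ℝ) 1 := ⟨by norm_num, by norm_num⟩
  refine ⟨{t | HasDerivAt (fun x => ∫ r in (1 / 2 : ℝ)..x, u r) (u t) t}, ?_, ?_⟩
  · have h1 : ∀ n : ℕ, ∀ᵐ t, t ∈ Icc (1 / ((n : ℝ) + 3)) (1 - 1 / ((n : ℝ) + 3)) →
        HasDerivAt (fun x => ∫ r in (1 / 2 : ℝ)..x, u r) (u t) t := by
      intro n
      have e0 : 0 < 1 / ((n : ℝ) + 3) := by positivity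
      have e1 : 1 / ((n : ℝ) + 3) ≤ 1 / 3 := by
        apply one_div_le_one_div_of_le (by norm_num)
        have : (0 : ℝ) ≤ n := Nat.cast_nonneg n
        linarith
      have hle : 1 / ((n : ℝ) + 3) ≤ 1 - 1 / ((n : ℝ) + 3) := by linarith
      have hI := hu (1 / ((n : ℝ) + 3)) ⟨e0, by linarith⟩ (1 - 1 / ((n : ℝ) + 3))
        ⟨by linarith, by linarith⟩
      filter_upwards [hI.ae_hasDerivAt_integral] with t ht h2
      rw [uIcc_of_le hle] at ht
      exact ht h2 (1 / 2) ⟨by linarith, by linarith⟩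
    filter_upwards [ae_all_iff.2 h1] with t ht h2
    obtain ⟨n, hn⟩ := exists_nat_gt (1 / min t (1 - t))
    have hmin : 0 < min t (1 - t) := lt_min h2.1 (by linarith [h2.2])
    have h3 : 1 / ((n : ℝ) + 3) ≤ min t (1 - t) := by
      rw [div_le_iff₀ (by positivity)]
      rw [div_lt_iff₀ hmin] at hn
      nlinarith
    have h4 := le_min_iff.1 h3
    exact ht n ⟨h4.1, by linarith [h4.2]⟩
  · intro s hs t ht h0 h1 h2
    have hsI : s ∈ Ioo (0 : ℝ) 1 := ⟨h0, h1.trans h2⟩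
    have htI : t ∈ Ioo (0 : ℝ) 1 := ⟨h0.trans h1, h2⟩
    have k1 := H761.stk_tendsto hLI hc hsI hs
    have k2 := H761.stk_tendsto hLI hc htI ht
    refine le_of_tendsto_of_tendsto k2 k1 ?_
    have h3 : ∀ᶠ e : ℝ in 𝓝[>] 0, t + e < 1 := by
      have : Tendsto (fun e : ℝ => t + e) (𝓝[>] 0) (𝓝 (t + 0)) :=
        (tendsto_const_nhds.add tendsto_id).mono_left nhdsWithin_le_nhds
      rw [add_zero] at this
      exact this.eventually (gt_mem_nhds h2)
    filter_upwards [h3, self_mem_nhdsWithin] with e he he0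
    have he0 : 0 < e := he0
    have := H761.avg_anti hLI hm h0 h1 he0 he
    simp only [H761.stk, smul_eq_mul]
    exact mul_le_mul_of_nonneg_left this (inv_nonneg.2 he0.le)

/-- `z' ≤ -z²/(C t²)` with downward jumps: the blow-up bound -/
theorem blow {P : Set ℝ} {s₀ t₀ C : ℝ} {z : ℝ → ℝ} (hs0 : 0 < s₀) (hst : s₀ < t₀)
    (hP : DenseIn P s₀ t₀) (hs : s₀ ∈ P) (ht : t₀ ∈ P) (hC : 0 < C) (hz0 : 0 < z t₀)
    (hz : ∀ s ∈ P, ∀ t ∈ P, s₀ ≤ s → s < t → t ≤ t₀ → 0 < z t →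
      z t ^ 2 / C * (1 / s - 1 / t) ≤ z s - z t) :
    1 / C * (1 / s₀ - 1 / t₀) ≤ 1 / z t₀ := by
  have hinv : ∀ s t : ℝ, s₀ ≤ s → s < t → 0 ≤ 1 / s - 1 / t := by
    intro s t h1 h2
    have h3 : 0 < s := hs0.trans_le h1
    have := one_div_le_one_div_of_le h3 h2.le
    linarith
  have hz1 : ∀ s ∈ P, s₀ ≤ s → s ≤ t₀ → z t₀ ≤ z s := by
    intro s hsP h1 h2
    rcases h2.eq_or_lt with h2 | h2
    · rw [h2]
    · have k1 := hz s hsP t₀ ht h1 h2 le_rfl hz0
      have k2 := hinv s t₀ h1 h2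
      have k3 : 0 ≤ z t₀ ^ 2 / C * (1 / s - 1 / t₀) := by positivity
      linarith
  have hmain : ∀ δ > 0, 1 / C * (1 / s₀ - 1 / t₀) ≤ 1 / z t₀ - 1 / z s₀ + δ * (z s₀ - z t₀) := by
    intro δ hδ
    -- step size
    have hη : 0 < δ * (C * z t₀ * s₀ ^ 2) := by positivity
    have key := chain (P := P) (α := s₀) (β := t₀) (η := δ * (C * z t₀ * s₀ ^ 2))
      (f := fun r => -(1 / z r) - 1 / C * (1 / r) + δ * z r) hη hP hs ht hst.le ?_
    · linarith
    · intro s hsP t htP h1 h2 h3 h4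
      have hs' : 0 < s := hs0.trans_le h1
      have ht' : 0 < t := hs'.trans h2
      have hzs : z t₀ ≤ z s := hz1 s hsP h1 (h2.le.trans h3)
      have hzt : z t₀ ≤ z t := hz1 t htP (h1.trans h2.le) h3
      have hzs0 : 0 < z s := hz0.trans_le hzs
      have hzt0 : 0 < z t := hz0.trans_le hzt
      have k1 := hz s hsP t htP h1 h2 h3 hzt0
      have k2 := hinv s t h1 h2
      have hd : 0 ≤ z s - z t := le_trans (by positivity) k1
      -- `1/z t - 1/z s ≥ (z t / z s) (1/C) (1/s - 1/t)`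
      have k3 : z t / z s * (1 / C * (1 / s - 1 / t)) ≤ 1 / z t - 1 / z s := by
        have e1 : 1 / z t - 1 / z s = (z s - z t) / (z s * z t) := by field_simp
        rw [e1, le_div_iff₀ (by positivity)]
        have e2 : z t / z s * (1 / C * (1 / s - 1 / t)) * (z s * z t) =
            z t ^ 2 / C * (1 / s - 1 / t) := by field_simp
        rw [e2]; exact k1
      -- `(1 - z t / z s) (1/C) (1/s - 1/t) ≤ δ (z s - z t)`
      have k4 : (1 - z t / z s) * (1 / C * (1 / s - 1 / t)) ≤ δ * (z s - z t) := by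
        have e1 : 1 - z t / z s = (z s - z t) / z s := by field_simp
        have e2 : 1 / s - 1 / t = (t - s) / (s * t) := by field_simp
        have e3 : (t - s) / (s * t) ≤ δ * (C * z t₀) := by
          rw [div_le_iff₀ (by positivity)]
          have e4 : s₀ ^ 2 ≤ s * t := by nlinarith
          have e5 : δ * (C * z t₀) * s₀ ^ 2 ≤ δ * (C * z t₀) * (s * t) :=
            mul_le_mul_of_nonneg_left e4 (by positivity)
          nlinarith
        have e6 : 1 / C * (1 / s - 1 / t) ≤ δ * z t₀ := by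
          rw [e2]
          have := mul_le_mul_of_nonneg_left e3 (by positivity : 0 ≤ 1 / C)
          refine this.trans (le_of_eq ?_)
          field_simp
        have e7 : (z s - z t) / z s * (1 / C * (1 / s - 1 / t)) ≤ (z s - z t) / z s * (δ * z t₀) :=
          mul_le_mul_of_nonneg_left e6 (by positivity)
        rw [e1]
        refine e7.trans ?_
        rw [div_mul_eq_mul_div, div_le_iff₀ hzs0]
        have e8 : 0 ≤ δ * (z s - z t) := by positivity
        nlinarith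
      have e9 : (1 - z t / z s) * (1 / C * (1 / s - 1 / t)) +
          z t / z s * (1 / C * (1 / s - 1 / t)) = 1 / C * (1 / s) - 1 / C * (1 / t) := by ring
      linarith
  have hlim : Tendsto (fun δ : ℝ => 1 / z t₀ - 1 / z s₀ + δ * (z s₀ - z t₀)) (𝓝[>] 0)
      (𝓝 (1 / z t₀ - 1 / z s₀ + 0 * (z s₀ - z t₀))) := by
    refine Tendsto.mono_left ?_ nhdsWithin_le_nhds
    exact (Continuous.tendsto (by fun_prop) 0)
  have h1 := ge_of_tendsto hlim (by
    filter_upwards [self_mem_nhdsWithin] with δ hδ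
    exact hmain δ hδ)
  have h2 : 0 < 1 / z s₀ := by
    have := hz1 s₀ hs le_rfl hst.le
    have : 0 < z s₀ := hz0.trans_le this
    positivity
  linarith

end Vale.Agent.P233.H3
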