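import Vale.Agent.P233.H3.Prim

/-! From constant coefficients to absolutely continuous coefficients. -/

open MeasureTheory Set intervalIntegral Filter Topology
open scoped ENNReal NNReal Interval

namespace Vale.Agent.P233.H3

/-- `P` meets every open subinterval of `[α,β]` -/
def DenseIn (P : Set ℝ) (α β : ℝ) : Prop :=
  ∀ s t, α ≤ s → s < t → t ≤ β → ∃ r ∈ P, s < r ∧ r < t

theorem denseIn_of_ae {P : Set ℝ} {α β : ℝ} (h : ∀ᵐ t, t ∈ Ioo α β → t ∈ P) : DenseIn P α β := by
  intro s t h1 h2 h3
  by_contra hc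
  push Not at hc
  have h4 : volume (Ioo s t) = 0 := by
    refine measure_mono_null (t := {t | ¬ (t ∈ Ioo α β → t ∈ P)}) ?_ h
    intro r hr
    simp only [mem_ofPred_eq, not_forall]
    exact ⟨⟨h1.trans_lt hr.1, hr.2.trans_le h3⟩, fun hrP => absurd hr.2 (not_lt.2 (hc r hrP hr.1))⟩
  rw [Real.volume_Ioo] at h4
  simp only [ENNReal.ofReal_eq_zero] at h4
  linarith

theorem chain {P : Set ℝ} {α β η : ℝ} {f : ℝ → ℝ} (hη : 0 < η) (hP : DenseIn P α β)
    (hα : α ∈ P) (hβ : β ∈ P) (hαβ : α ≤ β)
    (h : ∀ s ∈ P, ∀ t ∈ P, α ≤ s → s < t → t ≤ β → t - s < η → f t ≤ f s) : f β ≤ f α := by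
  have key : ∀ n : ℕ, ∀ t ∈ P, α ≤ t → t ≤ β → t - α ≤ n * (η / 2) → f t ≤ f α := by
    intro n
    induction n with
    | zero =>
      intro t ht h1 h2 h3
      have : t = α := by simp at h3; linarith
      rw [this]
    | succ n ih =>
      intro t ht h1 h2 h3
      rcases h1.eq_or_lt with h1 | h1
      · rw [h1]
      by_cases h4 : t - α < η
      · exact h α hα t ht le_rfl h1 h2 h4
      · push Not at h4
        obtain ⟨r, hr, h5, h6⟩ := hP (t - η) (t - η / 2) (by linarith) (by linarith) (by linarith)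
        refine (h r hr t ht (by linarith) (by linarith) h2 (by linarith)).trans ?_
        refine ih r hr (by linarith) (by linarith) ?_
        push_cast at h3
        linarith
  obtain ⟨n, hn⟩ := exists_nat_ge ((β - α) / (η / 2))
  refine key n β hβ hαβ le_rfl ?_
  rwa [div_le_iff₀ (by positivity)] at hn

theorem prim_int {f : ℝ → ℝ} {a b : ℝ} (hab : a ≤ b) (h : IntervalIntegrable f volume a b) :
    Prim (fun r => ∫ x in a..r, f x) f a b := ⟨hab, h, fun t _ => by simp⟩

theorem psd_abs_le {K : Type*} [Fintype K] [DecidableEq K] {D : K → K → ℝ}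
    (hs : ∀ i j, D i j = D j i) (h : ∀ ζ : K → ℝ, 0 ≤ ∑ i, ∑ j, ζ i * ζ j * D i j) :
    (∀ i, 0 ≤ D i i) ∧ ∀ i j, |D i j| ≤ ∑ k, D k k := by
  have h1 : ∀ i j, ∑ i', ∑ j', (Pi.single i 1 : K → ℝ) i' * (Pi.single j 1 : K → ℝ) j' * D i' j'
      = D i j := by
    intro i j
    rw [Finset.sum_eq_single i, Finset.sum_eq_single j]
    · simp
    · intro b _ hb; simp [hb]
    · simp
    · intro b _ hb; simp [hb]
    · simp
  have h0 : ∀ i, 0 ≤ D i i := fun i => by
    have := h (Pi.single i 1)
    rwa [h1 i i] at this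
  refine ⟨h0, fun i j => ?_⟩
  have h2 : ∀ ε : ℝ, ∑ i', ∑ j', ((Pi.single i 1 : K → ℝ) + ε • (Pi.single j 1 : K → ℝ)) i' *
      ((Pi.single i 1 : K → ℝ) + ε • (Pi.single j 1 : K → ℝ)) j' * D i' j' =
      D i i + ε * D i j + ε * D j i + ε * ε * D j j := by
    intro ε
    rw [← h1 i i, ← h1 i j, ← h1 j i, ← h1 j j, Finset.mul_sum, Finset.mul_sum, Finset.mul_sum,
      ← Finset.sum_add_distrib, ← Finset.sum_add_distrib, ← Finset.sum_add_distrib]
    refine Finset.sum_congr rfl fun i' _ => ?_
    rw [Finset.mul_sum, Finset.mul_sum, Finset.mul_sum,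
      ← Finset.sum_add_distrib, ← Finset.sum_add_distrib, ← Finset.sum_add_distrib]
    refine Finset.sum_congr rfl fun j' _ => ?_
    simp only [Pi.add_apply, Pi.smul_apply, smul_eq_mul]
    ring
  have h3 := h ((Pi.single i 1 : K → ℝ) + (1 : ℝ) • (Pi.single j 1 : K → ℝ))
  have h4 := h ((Pi.single i 1 : K → ℝ) + (-1 : ℝ) • (Pi.single j 1 : K → ℝ))
  rw [h2] at h3 h4
  have h5 : D i i ≤ ∑ k, D k k := Finset.single_le_sum (fun k _ => h0 k) (Finset.mem_univ i)
  have h6 : D j j ≤ ∑ k, D k k := Finset.single_le_sum (fun k _ => h0 k) (Finset.mem_univ j)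
  have h7 := hs i j
  rw [abs_le]
  constructor <;> linarith

/-- the matrix inequality with absolutely continuous coefficients -/
theorem quad_chain {K : Type*} [Fintype K] [DecidableEq K] {P : Set ℝ} {α β : ℝ}
    (hP : DenseIn P α β) (hPae : ∀ᵐ t, t ∈ Ioo α β → t ∈ P) (hα : α ∈ P) (hβ : β ∈ P) (hαβ : α ≤ β)
    {S Q : K → K → ℝ → ℝ} {c c' : K → ℝ → ℝ}
    (hS : ∀ s ∈ P, ∀ t ∈ P, α ≤ s → s < t → t ≤ β → ∀ ζ : K → ℝ,
      ∑ i, ∑ j, ζ i * ζ j * (S i j t - S i j s) ≤ ∑ i, ∑ j, ζ i * ζ j * ∫ r in s..t, Q i j r)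
    (hSs : ∀ t ∈ P, α ≤ t → t ≤ β → ∀ i j, S i j t = S j i t) (hQs : ∀ i j t, Q i j t = Q j i t)
    (hQ : ∀ i j, IntervalIntegrable (Q i j) volume α β)
    (hSi : ∀ i j, IntervalIntegrable (S i j) volume α β)
    (hc : ∀ i, Prim (c i) (c' i) α β) :
    IntervalIntegrable (fun r => ∑ i, ∑ j, (c i r * c j r * Q i j r + 2 * c' i r * c j r * S i j r))
      volume α β ∧
    ∑ i, ∑ j, c i β * c j β * S i j β - ∑ i, ∑ j, c i α * c j α * S i j α ≤
      ∫ r in α..β, ∑ i, ∑ j, (c i r * c j r * Q i j r + 2 * c' i r * c j r * S i j r) := by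
  classical
  -- the primitives of `Q`
  have hIQ : ∀ i j, Prim (fun r => ∫ x in α..r, Q i j x) (Q i j) α β := fun i j =>
    prim_int hαβ (hQ i j)
  set q : ℝ → ℝ := fun r => ∑ i, ∑ j, |Q i j r| with hq
  have hqi : IntervalIntegrable q volume α β := by
    have : q = ∑ i, ∑ j, fun r => |Q i j r| := by
      funext r; simp [hq, Finset.sum_apply]
    rw [this]
    exact IntervalIntegrable.sum _ fun i _ => IntervalIntegrable.sum _ fun j _ => (hQ i j).abs
  have hq0 : ∀ r, 0 ≤ q r := fun r => Finset.sum_nonneg fun i _ => Finset.sum_nonneg fun j _ =>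
    abs_nonneg _
  set e : ℝ → ℝ := fun r => ∑ i, |c' i r| with he
  have hei : IntervalIntegrable e volume α β := by
    have : e = ∑ i, fun r => |c' i r| := by
      funext r; simp [he, Finset.sum_apply]
    rw [this]
    exact IntervalIntegrable.sum _ fun i _ => (hc i).int.abs
  have he0 : ∀ r, 0 ≤ e r := fun r => Finset.sum_nonneg fun i _ => abs_nonneg _
  -- the defect matrix
  set W : ℝ → ℝ := fun r => (∫ x in α..r, q x) + ∑ i, (∫ x in α..r, Q i i x) - ∑ i, S i i r with hW
  have hIq : Prim (fun r => ∫ x in α..r, q x) q α β := prim_int hαβ hqi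
  have hIe : Prim (fun r => ∫ x in α..r, e x) e α β := prim_int hαβ hei
  have hWd : ∀ s t, α ≤ s → s ≤ t → t ≤ β → W t - W s = (∫ x in s..t, q x) +
      ∑ i, ((∫ x in s..t, Q i i x) - (S i i t - S i i s)) := by
    intro s t h1 h2 h3
    have e1 := hIq.sub_eq (s := s) (t := t) ⟨h1, h2.trans h3⟩ ⟨h1.trans h2, h3⟩
    have e2 : ∀ i, (∫ x in α..t, Q i i x) - (∫ x in α..s, Q i i x) = ∫ x in s..t, Q i i x := fun i =>
      (hIQ i i).sub_eq (s := s) (t := t) ⟨h1, h2.trans h3⟩ ⟨h1.trans h2, h3⟩
    rw [← e1]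
    simp only [hW, Finset.sum_sub_distrib, ← e2]
    ring
  have hDpsd : ∀ s ∈ P, ∀ t ∈ P, α ≤ s → s < t → t ≤ β →
      (∀ i, 0 ≤ (∫ x in s..t, Q i i x) - (S i i t - S i i s)) ∧
      ∀ i j, |(∫ x in s..t, Q i j x) - (S i j t - S i j s)| ≤
        ∑ k, ((∫ x in s..t, Q k k x) - (S k k t - S k k s)) := by
    intro s hs t ht h1 h2 h3
    refine psd_abs_le (D := fun i j => (∫ x in s..t, Q i j x) - (S i j t - S i j s)) ?_ ?_
    · intro i j
      simp only [hSs s hs h1 (h2.le.trans h3) i j, hSs t ht (h1.trans h2.le) h3 i j,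
        fun x => hQs i j x]
    · intro ζ
      have := hS s hs t ht h1 h2 h3 ζ
      have e : ∑ i, ∑ j, ζ i * ζ j * ((∫ x in s..t, Q i j x) - (S i j t - S i j s)) =
          ∑ i, ∑ j, ζ i * ζ j * (∫ x in s..t, Q i j x) -
          ∑ i, ∑ j, ζ i * ζ j * (S i j t - S i j s) := by
        simp only [mul_sub, Finset.sum_sub_distrib]
      rw [e]
      linarith
  have habsQ : ∀ s t, α ≤ s → s ≤ t → t ≤ β → ∀ i j, |∫ x in s..t, Q i j x| ≤ ∫ x in s..t, q x := by
    intro s t h1 h2 h3 i j
    refine (intervalIntegral.abs_integral_le_integral_abs h2).trans ?_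
    refine intervalIntegral.integral_mono_on h2 (ii_sub (hQ i j) h1 h2 h3).abs
      (ii_sub hqi h1 h2 h3) fun x _ => ?_
    exact (Finset.single_le_sum (f := fun j => |Q i j x|) (fun j _ => abs_nonneg _)
      (Finset.mem_univ j)).trans (Finset.single_le_sum (f := fun i => ∑ j, |Q i j x|)
      (fun i _ => Finset.sum_nonneg fun j _ => abs_nonneg _) (Finset.mem_univ i))
  have hSd : ∀ s ∈ P, ∀ t ∈ P, α ≤ s → s < t → t ≤ β → ∀ i j, |S i j t - S i j s| ≤ W t - W s := by
    intro s hs t ht h1 h2 h3 i j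
    rw [hWd s t h1 h2.le h3]
    have k1 := habsQ s t h1 h2.le h3 i j
    have k2 := (hDpsd s hs t ht h1 h2 h3).2 i j
    rw [abs_le] at k1 k2 ⊢
    constructor <;> linarith
  have hWm : ∀ s ∈ P, ∀ t ∈ P, α ≤ s → s < t → t ≤ β → W s ≤ W t := by
    intro s hs t ht h1 h2 h3
    have k1 := hWd s t h1 h2.le h3
    have k2 : 0 ≤ ∫ x in s..t, q x := intervalIntegral.integral_nonneg h2.le fun x _ => hq0 x
    have k3 : 0 ≤ ∑ i, ((∫ x in s..t, Q i i x) - (S i i t - S i i s)) :=
      Finset.sum_nonneg fun i _ => (hDpsd s hs t ht h1 h2 h3).1 i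
    linarith
  have hWm' : ∀ s ∈ P, ∀ t ∈ P, α ≤ s → s ≤ t → t ≤ β → W s ≤ W t := by
    intro s hs t ht h1 h2 h3
    rcases h2.eq_or_lt with h2 | h2
    · rw [h2]
    · exact hWm s hs t ht h1 h2 h3
  -- a bound for `S`
  obtain ⟨B, hB0, hB⟩ : ∃ B : ℝ, 0 ≤ B ∧ ∀ r ∈ P, α ≤ r → r ≤ β → ∀ i j, |S i j r| ≤ B := by
    refine ⟨∑ i, ∑ j, |S i j α| + (W β - W α), ?_, ?_⟩
    · have := hWm' α hα β hβ le_rfl hαβ le_rfl
      have h2 : 0 ≤ ∑ i, ∑ j, |S i j α| :=
        Finset.sum_nonneg fun i _ => Finset.sum_nonneg fun j _ => abs_nonneg _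
      linarith
    · intro r hr h1 h2 i j
      have k0 : |S i j α| ≤ ∑ i, ∑ j, |S i j α| :=
        (Finset.single_le_sum (f := fun j => |S i j α|) (fun j _ => abs_nonneg _)
        (Finset.mem_univ j)).trans (Finset.single_le_sum (f := fun i => ∑ j, |S i j α|)
        (fun i _ => Finset.sum_nonneg fun j _ => abs_nonneg _) (Finset.mem_univ i))
      have k1 := hWm' α hα r hr le_rfl h1 h2
      have k2 := hWm' r hr β hβ h1 h2 le_rfl
      rcases h1.eq_or_lt with h1 | h1
      · rw [← h1]; linarith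
      · have k3 := hSd α hα r hr le_rfl h1 h2 i j
        have k4 : |S i j r| ≤ |S i j α| + |S i j r - S i j α| := by
          have := abs_add_le (S i j α) (S i j r - S i j α)
          simpa using this
        linarith
  -- a bound for `c`
  obtain ⟨Cc, hC0, hC⟩ : ∃ C : ℝ, 0 ≤ C ∧ ∀ r ∈ Icc α β, ∀ i, |c i r| ≤ C := by
    have : ∀ i, ∃ C : ℝ, ∀ r ∈ Icc α β, |c i r| ≤ C := fun i => by
      obtain ⟨C, hC⟩ := isCompact_Icc.exists_bound_of_continuousOn (hc i).continuousOn
      exact ⟨C, fun r hr => by simpa using hC r hr⟩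
    choose C hC using this
    refine ⟨∑ i, |C i|, Finset.sum_nonneg fun i _ => abs_nonneg _, fun r hr i => ?_⟩
    exact ((hC i r hr).trans (le_abs_self _)).trans
      (Finset.single_le_sum (f := fun i => |C i|) (fun i _ => abs_nonneg _) (Finset.mem_univ i))
  set Ψ : ℝ → ℝ := fun r => ∑ i, ∑ j, (c i r * c j r * Q i j r + 2 * c' i r * c j r * S i j r) with hΨ
  have hccont : ∀ i, ContinuousOn (c i) (uIcc α β) := fun i => by
    rw [uIcc_of_le hαβ]; exact (hc i).continuousOn
  have hΨi : IntervalIntegrable Ψ volume α β := by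
    have e1 : Ψ = ∑ i, ∑ j, fun r => (c i r * c j r * Q i j r + 2 * c' i r * c j r * S i j r) := by
      funext r; simp [hΨ, Finset.sum_apply]
    rw [e1]
    refine IntervalIntegrable.sum _ fun i _ => IntervalIntegrable.sum _ fun j _ => ?_
    refine ((hQ i j).continuousOn_mul ((hccont i).mul (hccont j))).add ?_
    have h1 : IntervalIntegrable (fun r => 2 * c' i r * c j r) volume α β := by
      have := ((hc i).int.const_mul 2).mul_continuousOn (hccont j)
      exact this
    rw [intervalIntegrable_iff] at h1 ⊢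
    refine Integrable.mono' (g := fun r => |2 * c' i r * c j r| * B) (h1.abs.mul_const B) ?_ ?_
    · exact h1.aestronglyMeasurable.mul (intervalIntegrable_iff.1 (hSi i j)).aestronglyMeasurable
    · rw [ae_restrict_iff' measurableSet_uIoc, uIoc_of_le hαβ]
      filter_upwards [hPae, Measure.ae_ne volume β] with r hr hne hr2
      have hr3 : r ∈ Ioo α β := ⟨hr2.1, lt_of_le_of_ne hr2.2 hne⟩
      rw [Real.norm_eq_abs, abs_mul]
      exact mul_le_mul_of_nonneg_left (hB r (hr hr3) hr3.1.le hr3.2.le i j) (abs_nonneg _)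
  refine ⟨hΨi, ?_⟩
  have hIΨ : Prim (fun r => ∫ x in α..r, Ψ x) Ψ α β := prim_int hαβ hΨi
  set Φ : ℝ → ℝ := fun r => ∑ i, ∑ j, c i r * c j r * S i j r - ∫ x in α..r, Ψ x with hΦ
  set N : ℝ := (Fintype.card K : ℝ) with hN
  have hN0 : 0 ≤ N := by positivity
  set V : ℝ → ℝ := fun r => 2 * Cc * (∫ x in α..r, q x) + 3 * N * B * (∫ x in α..r, e x) +
    2 * N * Cc * W r with hV
  have main : ∀ δ > 0, Φ β - Φ α ≤ δ * (V β - V α) := by
    intro δ hδ
    -- uniform continuity
    have hcu : ContinuousOn (fun r => ((fun i => c i r : K → ℝ), ∫ x in α..r, e x)) (Icc α β) :=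
      (continuousOn_pi.2 fun i => (hc i).continuousOn).prodMk hIe.continuousOn
    have huc := isCompact_Icc.uniformContinuousOn_of_continuous hcu
    rw [Metric.uniformContinuousOn_iff] at huc
    obtain ⟨η, hη, hη2⟩ := huc δ hδ
    have hcδ : ∀ s ∈ Icc α β, ∀ t ∈ Icc α β, |s - t| < η → ∀ i, |c i s - c i t| ≤ δ := by
      intro s hs t ht hst i
      have h1 := (hη2 s hs t ht (by rwa [Real.dist_eq])).le
      rw [Prod.dist_eq, max_le_iff, dist_pi_le_iff hδ.le] at h1
      have h2 := h1.1 i
      rwa [Real.dist_eq] at h2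
    have heδ : ∀ s ∈ Icc α β, ∀ t ∈ Icc α β, |s - t| < η → |(∫ x in α..s, e x) - ∫ x in α..t, e x| ≤ δ := by
      intro s hs t ht hst
      have h1 := (hη2 s hs t ht (by rwa [Real.dist_eq])).le
      rw [Prod.dist_eq, max_le_iff] at h1
      have h2 := h1.2
      rwa [Real.dist_eq] at h2
    have hch : (fun r => Φ r - δ * V r) β ≤ (fun r => Φ r - δ * V r) α := by
      refine chain (f := fun r => Φ r - δ * V r) hη hP hα hβ hαβ ?_
      intro s hs t ht h1 h2 h3 h4
      have hsI : s ∈ Icc α β := ⟨h1, h2.le.trans h3⟩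
      have htI : t ∈ Icc α β := ⟨h1.trans h2.le, h3⟩
      set w : ℝ := W t - W s with hw
      have hw0 : 0 ≤ w := sub_nonneg.2 (hWm s hs t ht h1 h2 h3)
      -- the comparison function
      have hU : Prim (fun r => ∑ i, ∑ j, ((c i t * c j t) * (∫ x in α..r, Q i j x) +
          ((c j t + c j s) * S i j s) * c i r) - ∫ x in α..r, Ψ x)
          (fun r => ∑ i, ∑ j, ((c i t * c j t) * Q i j r +
          ((c j t + c j s) * S i j s) * c' i r) - Ψ r) s t := by
        refine Prim.sub ?_ (hIΨ.mono h1 h2.le h3)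
        refine Prim.sum _ h2.le fun i _ => Prim.sum _ h2.le fun j _ => ?_
        exact (((hIQ i j).mono h1 h2.le h3).const_mul _).add (((hc i).mono h1 h2.le h3).const_mul _)
      have hUd := hU.sub_eq (s := s) (t := t) ⟨le_rfl, h2.le⟩ ⟨h2.le, le_rfl⟩
      have hΦU : Φ t - Φ s ≤ ∫ r in s..t, (∑ i, ∑ j, ((c i t * c j t) * Q i j r +
          ((c j t + c j s) * S i j s) * c' i r) - Ψ r) := by
        rw [← hUd]
        have k1 := hS s hs t ht h1 h2 h3 (fun i => c i t)
        have k2 : ∀ i j, (∫ x in α..t, Q i j x) - (∫ x in α..s, Q i j x) = ∫ x in s..t, Q i j x :=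
          fun i j => (hIQ i j).sub_eq (s := s) (t := t) hsI htI
        have k3 : ∑ i, ∑ j, c i t * c j s * S i j s = ∑ i, ∑ j, c i s * c j t * S i j s := by
          rw [Finset.sum_comm]
          refine Finset.sum_congr rfl fun i _ => Finset.sum_congr rfl fun j _ => ?_
          rw [hSs s hs h1 (h2.le.trans h3) j i]; ring
        have k4 : ∑ i, ∑ j, c i t * c j t * ∫ x in s..t, Q i j x =
            ∑ i, ∑ j, c i t * c j t * (∫ x in α..t, Q i j x) -
            ∑ i, ∑ j, c i t * c j t * (∫ x in α..s, Q i j x) := by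
          simp only [← Finset.sum_sub_distrib, ← mul_sub, k2]
        have k5 : ∑ i, ∑ j, c i t * c j t * (S i j t - S i j s) =
            ∑ i, ∑ j, c i t * c j t * S i j t - ∑ i, ∑ j, c i t * c j t * S i j s := by
          simp only [← Finset.sum_sub_distrib, ← mul_sub]
        have k6 : ∀ r, ∑ i, ∑ j, ((c i t * c j t) * (∫ x in α..r, Q i j x) +
            ((c j t + c j s) * S i j s) * c i r) =
            ∑ i, ∑ j, c i t * c j t * (∫ x in α..r, Q i j x) +
            ∑ i, ∑ j, c i r * c j t * S i j s + ∑ i, ∑ j, c i r * c j s * S i j s := by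
          intro r
          simp only [← Finset.sum_add_distrib]
          refine Finset.sum_congr rfl fun i _ => Finset.sum_congr rfl fun j _ => ?_
          ring
        simp only [k6, hΦ]
        rw [k4, k5] at k1
        linarith
      have hbd : ∫ r in s..t, (∑ i, ∑ j, ((c i t * c j t) * Q i j r +
          ((c j t + c j s) * S i j s) * c' i r) - Ψ r) ≤
          ∫ r in s..t, (2 * Cc * δ * q r + N * (3 * δ * B + 2 * Cc * w) * e r) := by
        refine intervalIntegral.integral_mono_ae_restrict h2.le hU.int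
          (((ii_sub hqi h1 h2.le h3).const_mul _).add ((ii_sub hei h1 h2.le h3).const_mul _)) ?_
        rw [Filter.EventuallyLE, ae_restrict_iff' measurableSet_Icc]
        filter_upwards [hPae, Measure.ae_ne volume s, Measure.ae_ne volume t] with r hr hne1 hne2 hr2
        have hrs : s < r := lt_of_le_of_ne hr2.1 (Ne.symm hne1)
        have hrt : r < t := lt_of_le_of_ne hr2.2 hne2
        have hrI : r ∈ Icc α β := ⟨h1.trans hrs.le, hrt.le.trans h3⟩
        have hrP : r ∈ P := hr ⟨h1.trans_lt hrs, hrt.trans_le h3⟩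
        have d1 : ∀ i, |c i t - c i r| ≤ δ := hcδ t htI r hrI (by
          rw [abs_lt]; constructor <;> linarith)
        have d2 : ∀ i, |c i s - c i r| ≤ δ := hcδ s hsI r hrI (by
          rw [abs_lt]; constructor <;> linarith)
        have d3 : ∀ i j, |S i j s - S i j r| ≤ w := fun i j => by
          have k1 := hSd s hs r hrP h1 hrs (hrt.le.trans h3) i j
          have k2 := hWm r hrP t ht (h1.trans hrs.le) hrt h3
          rw [abs_sub_comm]
          linarith
        have e1 : ∀ i j, ((c i t * c j t) * Q i j r + ((c j t + c j s) * S i j s) * c' i r) -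
            (c i r * c j r * Q i j r + 2 * c' i r * c j r * S i j r) ≤
            2 * Cc * δ * |Q i j r| + (3 * δ * B + 2 * Cc * w) * |c' i r| := by
          intro i j
          have f1 : |c i t * c j t - c i r * c j r| ≤ 2 * Cc * δ := by
            have : c i t * c j t - c i r * c j r = (c i t - c i r) * c j t + c i r * (c j t - c j r) := by
              ring
            rw [this]
            refine (abs_add_le _ _).trans ?_
            rw [abs_mul, abs_mul]
            have g1 := mul_le_mul (d1 i) (hC t htI j) (abs_nonneg _) hδ.le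
            have g2 := mul_le_mul (hC r hrI i) (d1 j) (abs_nonneg _) hC0
            linarith
          have f2 : |(c j t + c j s) * S i j s - 2 * c j r * S i j r| ≤ 3 * δ * B + 2 * Cc * w := by
            have : (c j t + c j s) * S i j s - 2 * c j r * S i j r =
                ((c j t - c j r) + (c j s - c j r)) * S i j s + 2 * c j r * (S i j s - S i j r) := by
              ring
            rw [this]
            refine (abs_add_le _ _).trans ?_
            rw [abs_mul, abs_mul, abs_mul]
            have g0 : |(c j t - c j r) + (c j s - c j r)| ≤ 2 * δ :=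
              (abs_add_le _ _).trans (by linarith [d1 j, d2 j])
            have g1 := mul_le_mul g0 (hB s hs h1 (h2.le.trans h3) i j) (abs_nonneg _) (by positivity)
            have g2 := mul_le_mul (hC r hrI j) (d3 i j) (abs_nonneg _) hC0
            have g3 : |(2 : ℝ)| = 2 := by norm_num
            rw [g3]
            have g4 : 0 ≤ δ * B := by positivity
            linarith
          have f3 : (c i t * c j t - c i r * c j r) * Q i j r ≤ 2 * Cc * δ * |Q i j r| := by
            refine (le_abs_self _).trans ?_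
            rw [abs_mul]
            exact mul_le_mul_of_nonneg_right f1 (abs_nonneg _)
          have f4 : ((c j t + c j s) * S i j s - 2 * c j r * S i j r) * c' i r ≤
              (3 * δ * B + 2 * Cc * w) * |c' i r| := by
            refine (le_abs_self _).trans ?_
            rw [abs_mul]
            exact mul_le_mul_of_nonneg_right f2 (abs_nonneg _)
          linarith
        have e2 : ∑ i, ∑ j, ((c i t * c j t) * Q i j r + ((c j t + c j s) * S i j s) * c' i r) - Ψ r =
            ∑ i, ∑ j, (((c i t * c j t) * Q i j r + ((c j t + c j s) * S i j s) * c' i r) -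
            (c i r * c j r * Q i j r + 2 * c' i r * c j r * S i j r)) := by
          simp only [hΨ, ← Finset.sum_sub_distrib]
        rw [e2]
        refine (Finset.sum_le_sum fun i _ => Finset.sum_le_sum fun j _ => e1 i j).trans (le_of_eq ?_)
        simp only [hq, he, hN, Finset.sum_add_distrib, ← Finset.mul_sum, Finset.sum_const,
          Finset.card_univ, nsmul_eq_mul]
        ring
      have hint : ∫ r in s..t, (2 * Cc * δ * q r + N * (3 * δ * B + 2 * Cc * w) * e r) ≤
          δ * (V t - V s) := by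
        rw [intervalIntegral.integral_add ((ii_sub hqi h1 h2.le h3).const_mul _)
          ((ii_sub hei h1 h2.le h3).const_mul _), intervalIntegral.integral_const_mul,
          intervalIntegral.integral_const_mul, ← hIq.sub_eq hsI htI, ← hIe.sub_eq hsI htI]
        have g1 : |(∫ x in α..t, e x) - ∫ x in α..s, e x| ≤ δ := heδ t htI s hsI (by
          rw [abs_lt]; constructor <;> linarith)
        have g2 := (le_abs_self _).trans g1
        have g3 : 0 ≤ N * (2 * Cc * w) := by positivity
        have g4 := mul_le_mul_of_nonneg_left g2 g3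
        simp only [hV]
        nlinarith [g4]
      have := (hΦU.trans hbd).trans hint
      linarith
    simp only at hch
    linarith
  have hlim : Φ β - Φ α ≤ 0 := by
    by_contra hcon
    push Not at hcon
    have hV1 := main 1 one_pos
    have hVpos : 0 < V β - V α := by linarith
    have := main ((Φ β - Φ α) / (2 * (V β - V α))) (by positivity)
    rw [div_mul_eq_mul_div, le_div_iff₀ (by positivity)] at this
    nlinarith
  simp only [hΦ, intervalIntegral.integral_same] at hlim
  linarith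

end Vale.Agent.P233.H3
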