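import Mathlib

/-! Reproducing formula for the span of a family of vectors with a Gram matrix of rank `k`. -/

open Matrix Set
open scoped InnerProductSpace

namespace Vale.Agent.P233.H3

variable {E : Type*} [NormedAddCommGroup E] [InnerProductSpace ℝ E]

/-- principal submatrix -/
def GM (G : ℕ → ℕ → ℝ) (s : Finset ℕ) : Matrix s s ℝ := Matrix.of fun i j : s => G i j

theorem li_of_det {g : ℕ → E} {s : Finset ℕ} (h : (GM (fun i j => ⟪g i, g j⟫_ℝ) s).det ≠ 0) :
    LinearIndepOn ℝ g (s : Set ℕ) :=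
  (Matrix.det_gram_ne_zero_iff_linearIndependent (𝕜 := ℝ) (v := fun i : s => g i)).1 h

theorem det_of_li {g : ℕ → E} {s : Finset ℕ} (h : LinearIndepOn ℝ g (s : Set ℕ)) :
    (GM (fun i j => ⟪g i, g j⟫_ℝ) s).det ≠ 0 :=
  (Matrix.det_gram_ne_zero_iff_linearIndependent (𝕜 := ℝ) (v := fun i : s => g i)).2 h

theorem mem_span_of_rank {g : ℕ → E} {k : ℕ}
    (hk : ∀ s : Finset ℕ, s.card = k + 1 → (GM (fun i j => ⟪g i, g j⟫_ℝ) s).det = 0)
    {s : Finset ℕ} (hs : s.card = k) (hd : (GM (fun i j => ⟪g i, g j⟫_ℝ) s).det ≠ 0) (j : ℕ) :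
    g j ∈ Submodule.span ℝ (g '' s) := by
  classical
  by_cases hj : j ∈ s
  · exact Submodule.subset_span ⟨j, hj, rfl⟩
  · by_contra hc
    have h1 : LinearIndepOn ℝ g (insert j (s : Set ℕ)) :=
      (linearIndepOn_insert (by simpa using hj)).2 ⟨li_of_det hd, hc⟩
    have h2 : (insert j s).card = k + 1 := by rw [Finset.card_insert_of_notMem hj, hs]
    rw [← Finset.coe_insert] at h1
    exact det_of_li h1 (hk _ h2)

theorem repro {g : ℕ → E} {k : ℕ}
    (hk : ∀ s : Finset ℕ, s.card = k + 1 → (GM (fun i j => ⟪g i, g j⟫_ℝ) s).det = 0)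
    {s : Finset ℕ} (hs : s.card = k) {w : E}
    (hw : w ∈ (Submodule.span ℝ (range g)).topologicalClosure) :
    ∑ i : s, ∑ j : s, ((GM (fun i j => ⟪g i, g j⟫_ℝ) s).det *
      (GM (fun i j => ⟪g i, g j⟫_ℝ) s).adjugate i j * ⟪g j, w⟫_ℝ) • g i =
      (GM (fun i j => ⟪g i, g j⟫_ℝ) s).det ^ 2 • w := by
  set A := GM (fun i j => ⟪g i, g j⟫_ℝ) s with hA
  by_cases hd : A.det = 0
  · simp [hd]
  · have h1 : Submodule.span ℝ (range g) = Submodule.span ℝ (g '' s) := by
      apply le_antisymm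
      · rw [Submodule.span_le]
        rintro _ ⟨j, rfl⟩
        exact mem_span_of_rank hk hs hd j
      · exact Submodule.span_mono (image_subset_range _ _)
    have hfd : FiniteDimensional ℝ (Submodule.span ℝ (g '' (s : Set ℕ))) :=
      FiniteDimensional.span_of_finite ℝ (s.finite_toSet.image g)
    rw [h1, (Submodule.closed_of_finiteDimensional _).submodule_topologicalClosure_eq] at hw
    obtain ⟨c, hc⟩ : ∃ c : s → ℝ, ∑ i, c i • g i = w := by
      have e : g '' (s : Set ℕ) = range (fun i : s => g i) := by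
        ext x; simp
      rw [e] at hw
      exact (Submodule.mem_span_range_iff_exists_fun ℝ).1 hw
    have h3 : ∀ j : s, ⟪g j, w⟫_ℝ = (A.mulVec c) j := by
      intro j
      rw [← hc, inner_sum]
      simp [hA, GM, mulVec, dotProduct, inner_smul_right, mul_comm]
    have h4 : A.adjugate.mulVec (A.mulVec c) = A.det • c := by
      rw [mulVec_mulVec, adjugate_mul, smul_mulVec, one_mulVec]
    have h5 : ∀ i : s, ∑ j : s, A.adjugate i j * ⟪g j, w⟫_ℝ = A.det * c i := by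
      intro i
      have := congrFun h4 i
      simp only [Pi.smul_apply, smul_eq_mul] at this
      rw [← this]
      simp only [h3]
      rfl
    calc ∑ i : s, ∑ j : s, (A.det * A.adjugate i j * ⟪g j, w⟫_ℝ) • g i
        = ∑ i : s, (A.det * (A.det * c i)) • g i := by
          refine Finset.sum_congr rfl fun i _ => ?_
          rw [← h5 i, ← Finset.sum_smul, Finset.mul_sum]
          simp only [mul_assoc]
      _ = A.det ^ 2 • w := by
          rw [← hc, Finset.smul_sum]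
          refine Finset.sum_congr rfl fun i _ => ?_
          rw [smul_smul]
          congr 1
          ring

/-- extension of a matrix by zero -/
def ext0 (s : Finset ℕ) (A : Matrix s s ℝ) (i j : ℕ) : ℝ :=
  if h : i ∈ s ∧ j ∈ s then A ⟨i, h.1⟩ ⟨j, h.2⟩ else 0

theorem sum_ext0 {V : Type*} [AddCommGroup V] [Module ℝ V] {s J : Finset ℕ} (hs : s ⊆ J)
    (A : Matrix s s ℝ) (F : ℕ → ℕ → V) :
    ∑ i : J, ∑ j : J, ext0 s A i j • F i j = ∑ i : s, ∑ j : s, A i j • F i j := by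
  classical
  have h1 : ∀ i : ℕ, ∑ j : J, ext0 s A i j • F i j = ∑ j ∈ s, ext0 s A i j • F i j := by
    intro i
    rw [Finset.sum_coe_sort J (fun j => ext0 s A i j • F i j)]
    refine (Finset.sum_subset hs fun j _ hj => ?_).symm
    simp [ext0, hj]
  simp only [h1]
  rw [Finset.sum_coe_sort J (fun i => ∑ j ∈ s, ext0 s A i j • F i j)]
  have h2 : ∑ i ∈ J, ∑ j ∈ s, ext0 s A i j • F i j = ∑ i ∈ s, ∑ j ∈ s, ext0 s A i j • F i j := by
    refine (Finset.sum_subset hs fun i _ hi => ?_).symm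
    refine Finset.sum_eq_zero fun j _ => ?_
    simp [ext0, hi]
  rw [h2, ← Finset.sum_coe_sort s (fun i => ∑ j ∈ s, ext0 s A i j • F i j)]
  refine Finset.sum_congr rfl fun i _ => ?_
  rw [← Finset.sum_coe_sort s (fun j => ext0 s A i j • F i j)]
  refine Finset.sum_congr rfl fun j _ => ?_
  simp [ext0]

/-- the reproducing matrix -/
noncomputable def Rm (F : Finset (Finset ℕ)) (G : ℕ → ℕ → ℝ) (i j : ℕ) : ℝ :=
  (∑ s ∈ F, (GM G s).det ^ 2)⁻¹ * ∑ s ∈ F, (GM G s).det * ext0 s (GM G s).adjugate i j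

theorem repro_Rm {g : ℕ → E} {k : ℕ} {G : ℕ → ℕ → ℝ} (hG : ∀ i j, G i j = ⟪g i, g j⟫_ℝ)
    (hk : ∀ s : Finset ℕ, s.card = k + 1 → (GM G s).det = 0)
    {F : Finset (Finset ℕ)} (hF : ∀ s ∈ F, s.card = k) (hF1 : ∃ s ∈ F, (GM G s).det ≠ 0)
    {J : Finset ℕ} (hJ : ∀ s ∈ F, s ⊆ J) {w : E}
    (hw : w ∈ (Submodule.span ℝ (range g)).topologicalClosure) :
    ∑ i : J, ∑ j : J, (Rm F G i j * ⟪g j, w⟫_ℝ) • g i = w := by
  have hG' : G = fun i j => ⟪g i, g j⟫_ℝ := by funext i j; exact hG i j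
  have hD : (∑ s ∈ F, (GM G s).det ^ 2) ≠ 0 := by
    obtain ⟨s, hs, hd⟩ := hF1
    have h1 : 0 < (GM G s).det ^ 2 := by positivity
    have h2 := Finset.single_le_sum (f := fun s => (GM G s).det ^ 2) (fun s _ => sq_nonneg _) hs
    exact (h1.trans_le h2).ne'
  have h1 : ∀ s ∈ F, ∑ i : J, ∑ j : J, ext0 s (GM G s).adjugate i j •
      (((GM G s).det * ⟪g j, w⟫_ℝ) • g i) = (GM G s).det ^ 2 • w := by
    intro s hs
    rw [sum_ext0 (hJ s hs) _ (fun i j => ((GM G s).det * ⟪g j, w⟫_ℝ) • g i)]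
    subst hG'
    rw [← repro hk (hF s hs) hw]
    refine Finset.sum_congr rfl fun i _ => Finset.sum_congr rfl fun j _ => ?_
    rw [smul_smul]
    congr 1
    ring
  have h2 : ∑ s ∈ F, ∑ i : J, ∑ j : J, ext0 s (GM G s).adjugate i j •
      (((GM G s).det * ⟪g j, w⟫_ℝ) • g i) = (∑ s ∈ F, (GM G s).det ^ 2) • w := by
    rw [Finset.sum_smul]
    exact Finset.sum_congr rfl h1
  have h3 : ∑ i : J, ∑ j : J, (Rm F G i j * ⟪g j, w⟫_ℝ) • g i =
      (∑ s ∈ F, (GM G s).det ^ 2)⁻¹ • ∑ s ∈ F, ∑ i : J, ∑ j : J, ext0 s (GM G s).adjugate i j •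
      (((GM G s).det * ⟪g j, w⟫_ℝ) • g i) := by
    have e : ∑ s ∈ F, ∑ i : J, ∑ j : J, ext0 s (GM G s).adjugate i j •
        (((GM G s).det * ⟪g j, w⟫_ℝ) • g i) = ∑ i : J, ∑ j : J, ∑ s ∈ F,
        ext0 s (GM G s).adjugate i j • (((GM G s).det * ⟪g j, w⟫_ℝ) • g i) := by
      rw [Finset.sum_comm]
      refine Finset.sum_congr rfl fun i _ => ?_
      rw [Finset.sum_comm]
    rw [e, Finset.smul_sum]
    refine Finset.sum_congr rfl fun i _ => ?_
    rw [Finset.smul_sum]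
    refine Finset.sum_congr rfl fun j _ => ?_
    simp only [smul_smul, ← Finset.sum_smul]
    congr 1
    simp only [Rm, mul_assoc, Finset.sum_mul]
    congr 1
    refine Finset.sum_congr rfl fun s _ => ?_
    ring
  rw [h3, h2, smul_smul, inv_mul_cancel₀ hD, one_smul]

theorem continuousOn_det {S : Set ℝ} {G : ℕ → ℕ → ℝ → ℝ} (hG : ∀ i j, ContinuousOn (G i j) S)
    (s : Finset ℕ) : ContinuousOn (fun t => (GM (fun i j => G i j t) s).det) S := by
  have h1 : ContinuousOn (fun t => GM (fun i j => G i j t) s) S :=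
    continuousOn_pi.2 fun i => continuousOn_pi.2 fun j => hG i j
  exact (continuous_id.matrix_det).comp_continuousOn h1

theorem continuousOn_Rm {S : Set ℝ} {G : ℕ → ℕ → ℝ → ℝ} (hG : ∀ i j, ContinuousOn (G i j) S)
    {F : Finset (Finset ℕ)} (hF : ∀ t ∈ S, ∃ s ∈ F, (GM (fun i j => G i j t) s).det ≠ 0)
    (i j : ℕ) : ContinuousOn (fun t => Rm F (fun i j => G i j t) i j) S := by
  have hD : ∀ t ∈ S, (∑ s ∈ F, (GM (fun i j => G i j t) s).det ^ 2) ≠ 0 := by
    intro t ht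
    obtain ⟨s, hs, hd⟩ := hF t ht
    have h1 : 0 < (GM (fun i j => G i j t) s).det ^ 2 := by positivity
    have h2 := Finset.single_le_sum (f := fun s => (GM (fun i j => G i j t) s).det ^ 2)
      (fun s _ => sq_nonneg _) hs
    exact (h1.trans_le h2).ne'
  unfold Rm
  refine ContinuousOn.mul (ContinuousOn.inv₀ (continuousOn_finsetSum _ fun s _ =>
    (continuousOn_det hG s).pow 2) hD) (continuousOn_finsetSum _ fun s _ =>
    (continuousOn_det hG s).mul ?_)
  unfold ext0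
  split_ifs with h
  · have h1 : ContinuousOn (fun t => GM (fun i j => G i j t) s) S :=
      continuousOn_pi.2 fun i => continuousOn_pi.2 fun j => hG i j
    have h2 : ContinuousOn (fun t => (GM (fun i j => G i j t) s).adjugate) S :=
      (continuous_id.matrix_adjugate).comp_continuousOn h1
    exact (continuous_apply_apply (⟨i, h.1⟩ : s) (⟨j, h.2⟩ : s)).comp_continuousOn h2
  · exact continuousOn_const

/-- finitely many minors suffice on a compact set -/
theorem cover {S : Set ℝ} (hS : IsCompact S) {U : Set ℝ} (hU : IsOpen U) (hSU : S ⊆ U)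
    {G : ℕ → ℕ → ℝ → ℝ} (hG : ∀ i j, ContinuousOn (G i j) U) {k : ℕ}
    (h : ∀ t ∈ U, ∃ s : Finset ℕ, s.card = k ∧ (GM (fun i j => G i j t) s).det ≠ 0) :
    ∃ F : Finset (Finset ℕ), (∀ s ∈ F, s.card = k) ∧
      ∀ t ∈ S, ∃ s ∈ F, (GM (fun i j => G i j t) s).det ≠ 0 := by
  classical
  refine hS.induction_on (p := fun S => ∃ F : Finset (Finset ℕ), (∀ s ∈ F, s.card = k) ∧
      ∀ t ∈ S, ∃ s ∈ F, (GM (fun i j => G i j t) s).det ≠ 0) ?_ ?_ ?_ ?_
  · exact ⟨∅, by simp, by simp⟩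
  · rintro S T hST ⟨F, h1, h2⟩
    exact ⟨F, h1, fun t ht => h2 t (hST ht)⟩
  · rintro S T ⟨F, h1, h2⟩ ⟨F', h1', h2'⟩
    refine ⟨F ∪ F', fun s hs => ?_, fun t ht => ?_⟩
    · rcases Finset.mem_union.1 hs with hs | hs
      · exact h1 s hs
      · exact h1' s hs
    · rcases ht with ht | ht
      · obtain ⟨s, hs, hd⟩ := h2 t ht
        exact ⟨s, Finset.mem_union_left _ hs, hd⟩
      · obtain ⟨s, hs, hd⟩ := h2' t ht
        exact ⟨s, Finset.mem_union_right _ hs, hd⟩
  · intro t ht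
    obtain ⟨s, hs, hd⟩ := h t (hSU ht)
    have hc : ContinuousAt (fun t => (GM (fun i j => G i j t) s).det) t :=
      (continuousOn_det hG s).continuousAt (hU.mem_nhds (hSU ht))
    have he := hc.eventually_ne hd
    exact ⟨{x | (GM (fun i j => G i j x) s).det ≠ 0}, mem_nhdsWithin_of_mem_nhds he, {s}, by simpa using hs,
      fun x hx => ⟨s, by simp, hx⟩⟩

end Vale.Agent.P233.H3
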