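import Vale.Agent.P233.H3.Loc2
import Vale.Agent.P233.H3.Lin

/-! Coefficients: linear ODE in coordinates; locally square integrable curves. -/

open MeasureTheory Set intervalIntegral Filter Topology
open scoped ENNReal NNReal Interval InnerProductSpace

set_option linter.all false

namespace Vale.Agent.P233.H3

theorem ii_sub_gen {W : Type*} [NormedAddCommGroup W] {f : ℝ → W} {a b c d : ℝ}
    (h : IntervalIntegrable f volume a b) (h1 : a ≤ c)
    (h2 : c ≤ d) (h3 : d ≤ b) : IntervalIntegrable f volume c d :=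
  h.mono_set (by
    rw [uIcc_of_le (h1.trans (h2.trans h3)), uIcc_of_le h2]; exact Icc_subset_Icc h1 h3)

theorem ii_smul_const {W : Type*} [NormedAddCommGroup W] [NormedSpace ℝ W] {f : ℝ → ℝ} {a b : ℝ}
    (h : IntervalIntegrable f volume a b) (w : W) :
    IntervalIntegrable (fun r => f r • w) volume a b := by
  rw [intervalIntegrable_iff] at h ⊢
  exact h.smul_const w

theorem ii_sum2 {W K : Type*} [Fintype K] [NormedAddCommGroup W] [NormedSpace ℝ W]
    {f : K → K → ℝ → ℝ} {a b : ℝ} (h : ∀ k i, IntervalIntegrable (f k i) volume a b)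
    (w : K → K → W) : IntervalIntegrable (fun r => ∑ k, ∑ i, f k i r • w k i) volume a b := by
  have e : (fun r => ∑ k, ∑ i, f k i r • w k i) = ∑ k, ∑ i, fun r => f k i r • w k i := by
    funext r; simp [Finset.sum_apply]
  rw [e]
  exact IntervalIntegrable.sum _ fun k _ => IntervalIntegrable.sum _ fun i _ =>
    ii_smul_const (h k i) (w k i)

section ode

variable {K : Type*} [Fintype K] [DecidableEq K]

/-- elementary matrices as continuous linear maps -/
noncomputable def Ecl (k i : K) : (K → ℝ) →L[ℝ] (K → ℝ) :=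
  (ContinuousLinearMap.proj i : (K → ℝ) →L[ℝ] ℝ).smulRight (Pi.single k (1 : ℝ) : K → ℝ)

theorem Ecl_apply (k i : K) (x : K → ℝ) (m : K) : Ecl k i x m = if m = k then x i else 0 := by
  simp [Ecl, Pi.single_apply]

/-- the terminal value problem `c' = A c` in coordinates -/
theorem ode_coeff {α ω : ℝ} (h : α ≤ ω) {A : K → K → ℝ → ℝ}
    (hA : ∀ k i, IntervalIntegrable (A k i) volume α ω) (x : K → ℝ) :
    ∃ c : K → ℝ → ℝ, (∀ k, c k ω = x k) ∧
      ∀ k, Prim (c k) (fun r => ∑ i, A k i r * c i r) α ω := by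
  let B : ℝ → (K → ℝ) →L[ℝ] (K → ℝ) := fun r => ∑ k, ∑ i, A k i r • Ecl k i
  have hB : IntervalIntegrable B volume α ω := by
    exact ii_sum2 hA Ecl
  have hBa : ∀ r (y : K → ℝ) (m : K), B r y m = ∑ i, A m i r * y i := by
    intro r y m
    have e1 : B r y = ∑ k, ∑ i, A k i r • (Ecl k i y) := by
      simp [B]
    rw [e1, Finset.sum_apply]
    rw [Finset.sum_eq_single m]
    · rw [Finset.sum_apply]
      refine Finset.sum_congr rfl fun i _ => ?_
      simp [Ecl_apply]
    · intro k _ hk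
      rw [Finset.sum_apply]
      refine Finset.sum_eq_zero fun i _ => ?_
      simp [Ecl_apply, hk.symm]
    · simp
  obtain ⟨X, hXc, hX⟩ := ode_back h hB x
  have hi : IntervalIntegrable (fun s => B s (X s)) volume α ω := by
    refine ii_apply hB ?_
    rwa [uIcc_of_le h]
  have hik : ∀ k, IntervalIntegrable (fun r => ∑ i, A k i r * X r i) volume α ω := by
    intro k
    have h1 := hi
    rw [intervalIntegrable_iff] at h1 ⊢
    have h2 := (ContinuousLinearMap.proj k : (K → ℝ) →L[ℝ] ℝ).integrable_comp h1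
    refine h2.congr (ae_of_all _ fun r => ?_)
    exact hBa r (X r) k
  refine ⟨fun k r => X r k, fun k => ?_, fun k => ⟨h, hik k, fun t ht => ?_⟩⟩
  · have := congrFun (hX ω (right_mem_Icc.2 h)) k
    simpa using this
  · have hk : ∀ t ∈ Icc α ω, X t k = x k - ∫ r in t..ω, ∑ i, A k i r * X r i := by
      intro t ht
      have h1 := congrFun (hX t ht) k
      rw [h1]
      have h2 := (ContinuousLinearMap.proj k : (K → ℝ) →L[ℝ] ℝ).intervalIntegral_comp_comm
        (ii_sub_gen hi ht.1 ht.2 le_rfl)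
      simp only [ContinuousLinearMap.proj_apply] at h2
      simp only [Pi.sub_apply, ← h2, hBa]
    change X t k = X α k + ∫ r in α..t, ∑ i, A k i r * X r i
    rw [hk t ht, hk α (left_mem_Icc.2 h)]
    have h3 := intervalIntegral.integral_add_adjacent_intervals
      (ii_sub (hik k) le_rfl ht.1 ht.2) (ii_sub (hik k) ht.1 ht.2 le_rfl)
    linarith

end ode

/-! ### locally integrable functions on `(0,1)` -/

theorem uIoc_sub {s t : ℝ} (hs : s ∈ Ioo (0 : ℝ) 1) (ht : t ∈ Ioo (0 : ℝ) 1) :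
    Ι s t ⊆ Ioo (0 : ℝ) 1 := by
  intro r hr
  have h1 := uIoc_subset_uIcc hr
  exact (ordConnected_Ioo.uIcc_subset hs ht) h1

theorem Lo.congr {f f' : ℝ → ℝ} (h : Lo f) (he : ∀ᵐ t, t ∈ Ioo (0 : ℝ) 1 → f t = f' t) : Lo f' := by
  intro s hs t ht
  refine (h s hs t ht).congr_ae ?_
  rw [Filter.EventuallyEq, ae_restrict_iff' measurableSet_uIoc]
  filter_upwards [he] with r hr h1
  exact hr (uIoc_sub hs ht h1)

theorem Lo.of_cont {f : ℝ → ℝ} (h : ContinuousOn f (Ioo 0 1)) : Lo f := by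
  intro s hs t ht
  exact (h.mono (ordConnected_Ioo.uIcc_subset hs ht)).intervalIntegrable

theorem Lo.add {f g : ℝ → ℝ} (hf : Lo f) (hg : Lo g) : Lo fun r => f r + g r :=
  fun s hs t ht => (hf s hs t ht).add (hg s hs t ht)

theorem Lo.sub {f g : ℝ → ℝ} (hf : Lo f) (hg : Lo g) : Lo fun r => f r - g r :=
  fun s hs t ht => (hf s hs t ht).sub (hg s hs t ht)

theorem Lo.const_mul {f : ℝ → ℝ} (hf : Lo f) (c : ℝ) : Lo fun r => c * f r :=
  fun s hs t ht => (hf s hs t ht).const_mul c

theorem Lo.mul_const {f : ℝ → ℝ} (hf : Lo f) (c : ℝ) : Lo fun r => f r * c :=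
  fun s hs t ht => (hf s hs t ht).mul_const c

theorem Lo.mul_cont {f g : ℝ → ℝ} (hf : Lo f) (hg : ContinuousOn g (Ioo 0 1)) :
    Lo fun r => f r * g r :=
  fun s hs t ht => (hf s hs t ht).mul_continuousOn
    (hg.mono (ordConnected_Ioo.uIcc_subset hs ht))

theorem Lo.sum {K : Type*} [Fintype K] {f : K → ℝ → ℝ} (hf : ∀ k, Lo (f k)) :
    Lo fun r => ∑ k, f k r := by
  intro s hs t ht
  have e : (fun r => ∑ k, f k r) = ∑ k, f k := by funext r; simp [Finset.sum_apply]
  rw [e]
  exact IntervalIntegrable.sum _ fun k _ => hf k s hs t ht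

theorem Lo.of_le {f g : ℝ → ℝ} (hg : Lo g)
    (hm : AEStronglyMeasurable f (volume.restrict (Ioo (0 : ℝ) 1)))
    (h : ∀ᵐ t, t ∈ Ioo (0 : ℝ) 1 → |f t| ≤ g t) : Lo f := by
  intro s hs t ht
  have h1 := hg s hs t ht
  rw [intervalIntegrable_iff] at h1 ⊢
  refine Integrable.mono' h1 (hm.mono_measure (Measure.restrict_mono (uIoc_sub hs ht) le_rfl)) ?_
  rw [ae_restrict_iff' measurableSet_uIoc]
  filter_upwards [h] with r hr h1
  exact hr (uIoc_sub hs ht h1)

variable {E : Type*} [NormedAddCommGroup E] [InnerProductSpace ℝ E]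

/-- locally square integrable on `(0,1)` -/
structure L2o (f : ℝ → E) : Prop where
  m : AEStronglyMeasurable f (volume.restrict (Ioo (0 : ℝ) 1))
  sq : Lo fun r => ‖f r‖ ^ 2

theorem L2o.inner {f g : ℝ → E} (hf : L2o f) (hg : L2o g) : Lo fun r => ⟪f r, g r⟫_ℝ := by
  refine (hf.sq.add hg.sq).of_le (hf.m.inner hg.m) (ae_of_all _ fun t _ => ?_)
  refine (abs_real_inner_le_norm _ _).trans ?_
  nlinarith [sq_nonneg (‖f t‖ - ‖g t‖), sq_nonneg ‖f t‖, sq_nonneg ‖g t‖]

end Vale.Agent.P233.H3
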