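import Vale.Agent.P233.H3.Coef
import Vale.Agent.P233.Gig.IfE

/-! Consequences of `CurveData`. -/

open MeasureTheory Set intervalIntegral Filter Topology
open scoped ENNReal NNReal Interval InnerProductSpace

set_option linter.all false

namespace Vale.Agent.P233.H3

variable {E : Type*} [NormedAddCommGroup E] [InnerProductSpace ℝ E]
variable {κ l : ℝ} {g a b : ℕ → ℝ → E} {v : ℝ → E} {Λ : ℝ → ℝ} {G : ℕ → ℕ → ℝ → ℝ}

theorem cont_of_prim {F f : ℝ → ℝ} (h : ∀ α ω, 0 < α → α ≤ ω → ω < 1 → Prim F f α ω) :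
    ContinuousOn F (Ioo 0 1) := by
  intro t ht
  obtain ⟨α, h0, h1⟩ := exists_between ht.1
  obtain ⟨ω, h2, h3⟩ := exists_between ht.2
  exact ((h α ω h0 (h1.trans h2).le h3).continuousOn.continuousAt
    (Icc_mem_nhds h1 h2)).continuousWithinAt

theorem un {q : ℝ → Prop} (h : ∀ᵐ t ∂(volume.restrict (Ioo (0 : ℝ) 1)), q t) :
    ∀ᵐ t, t ∈ Ioo (0 : ℝ) 1 → q t := (ae_restrict_iff' measurableSet_Ioo).1 h

theorem G_prim (h : CurveData κ l g a b v Λ G) (i j : ℕ) {α ω : ℝ} (h0 : 0 < α) (h1 : α ≤ ω)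
    (h2 : ω < 1) : Prim (G i j) (fun r => ⟪a i r, g j r⟫_ℝ + ⟪g i r, a j r⟫_ℝ) α ω := by
  refine ⟨h1, h.gram_int i j α ⟨h0, h1.trans_lt h2⟩ ω ⟨h0.trans_le h1, h2⟩, fun t ht => ?_⟩
  have := h.gram_ac i j α ⟨h0, h1.trans_lt h2⟩ t ⟨h0.trans_le ht.1, ht.2.trans_lt h2⟩
  linarith

theorem G_cont (h : CurveData κ l g a b v Λ G) (i j : ℕ) : ContinuousOn (G i j) (Ioo 0 1) :=
  cont_of_prim fun _ _ h0 h1 h2 => G_prim h i j h0 h1 h2

theorem L2g (h : CurveData κ l g a b v Λ G) (i : ℕ) : L2o (g i) := by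
  refine ⟨h.mg i, (Lo.of_cont (G_cont h i i)).congr ?_⟩
  filter_upwards [un (h.gram i i)] with t ht h1
  rw [ht h1, real_inner_self_eq_norm_sq]

theorem L2a (h : CurveData κ l g a b v Λ G) (i : ℕ) : L2o (a i) := ⟨h.ma i, h.a_sq i⟩

theorem L2v (h : CurveData κ l g a b v Λ G) : L2o v := by
  refine ⟨h.mv, (Lo.of_cont (continuousOn_const (c := l ^ 2))).congr ?_⟩
  filter_upwards [un h.vnorm] with t ht h1
  rw [ht h1]

theorem cmr_single {V : Type*} [AddCommGroup V] [Module ℝ V] (w : ℕ → V) (i : ℕ) :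
    cmr w (Finsupp.single i 1) = w i := by
  simp [cmr]

theorem L2b (h : CurveData κ l g a b v Λ G) (i : ℕ) : L2o (b i) := by
  have h1 : Lo fun r => Λ r ^ 2 * G i i r := Lo.mul_cont (f := fun r => Λ r ^ 2) h.Λ_sq (G_cont h i i)
  refine ⟨h.mb i, h1.of_le ((h.mb i).norm.pow 2) ?_⟩
  filter_upwards [un (h.gram i i), un h.bound] with t ht hb h1
  have h2 := hb h1 (Finsupp.single i 1)
  rw [cmr_single, cmr_single] at h2
  rw [ht h1, real_inner_self_eq_norm_sq, abs_of_nonneg (by positivity), ← mul_pow]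
  exact pow_le_pow_left₀ (norm_nonneg _) h2 2

theorem p_prim (h : CurveData κ l g a b v Λ G) {p : ℝ → ℝ} {i : ℕ}
    (hp : ∀ s ∈ Ioo (0 : ℝ) 1, ∀ t ∈ Ioo (0 : ℝ) 1, p t - p s = ∫ r in s..t, ⟪a i r, v r⟫_ℝ)
    {α ω : ℝ} (h0 : 0 < α) (h1 : α ≤ ω) (h2 : ω < 1) :
    Prim p (fun r => ⟪a i r, v r⟫_ℝ) α ω := by
  refine ⟨h1, (L2a h i).inner (L2v h) α ⟨h0, h1.trans_lt h2⟩ ω ⟨h0.trans_le h1, h2⟩, fun t ht => ?_⟩
  have := hp α ⟨h0, h1.trans_lt h2⟩ t ⟨h0.trans_le ht.1, ht.2.trans_lt h2⟩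
  linarith

theorem LoQ (h : CurveData κ l g a b v Λ G) (J : Finset ℕ) (i j : J) :
    Lo (Qf κ l (fun i : J => g i) (fun i : J => a i) (fun i : J => b i) v i j) := by
  obtain ⟨pi, hpi, hpi'⟩ := h.p_ac i
  obtain ⟨pj, hpj, hpj'⟩ := h.p_ac j
  have hci : ContinuousOn pi (Ioo 0 1) := cont_of_prim fun _ _ h0 h1 h2 => p_prim h hpi' h0 h1 h2
  have hcj : ContinuousOn pj (Ioo 0 1) := cont_of_prim fun _ _ h0 h1 h2 => p_prim h hpj' h0 h1 h2
  have h1 : Lo fun r => ⟪g i r, v r⟫_ℝ * ⟪g j r, v r⟫_ℝ := by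
    refine (Lo.of_cont (hci.mul hcj)).congr ?_
    filter_upwards [un hpi, un hpj] with t h1 h2 h3
    rw [← h1 h3, ← h2 h3]
    rfl
  exact ((((L2b h i).inner (L2a h j)).add ((L2b h j).inner (L2a h i))).sub
    ((L2b h i).inner (L2b h j))).sub (((((L2g h i).inner (L2g h j)).mul_const (l ^ 2)).sub h1).const_mul κ)

theorem cmb_eq {V : Type*} [AddCommGroup V] [Module ℝ V] (w : ℕ → V) (c : ℕ →₀ ℚ) {J : Finset ℕ}
    (hJ : c.support ⊆ J) : cmb w c = ∑ i : J, (c i : ℝ) • w i := by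
  unfold cmb
  rw [Finsupp.sum_of_support_subset c hJ _ (by simp),
    ← Finset.sum_coe_sort J (fun i => (c i : ℝ) • w i)]

/-- integrand of the Riccati inequality for a rational combination -/
noncomputable def Rc (κ l : ℝ) (g a b : ℕ → ℝ → E) (v : ℝ → E) (c : ℕ →₀ ℚ) (r : ℝ) : ℝ :=
  2 * ⟪cmb (fun i => b i r) c, cmb (fun i => a i r) c⟫_ℝ
    - ‖cmb (fun i => b i r) c‖ ^ 2
    - κ * (‖cmb (fun i => g i r) c‖ ^ 2 * l ^ 2 - ⟪cmb (fun i => g i r) c, v r⟫_ℝ ^ 2)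

theorem Rc_eq (c : ℕ →₀ ℚ) {J : Finset ℕ} (hJ : c.support ⊆ J) (r : ℝ) :
    Rc κ l g a b v c r = ∑ i : J, ∑ j : J, (c i : ℝ) * (c j : ℝ) *
      Qf κ l (fun i : J => g i) (fun i : J => a i) (fun i : J => b i) v i j r := by
  rw [quadQ κ l (fun i : J => g i) (fun i : J => a i) (fun i : J => b i) v r
    (fun i : J => (c i : ℝ)), Rc, cmb_eq _ c hJ, cmb_eq _ c hJ, cmb_eq _ c hJ]

theorem q_eq (c : ℕ →₀ ℚ) {J : Finset ℕ} (hJ : c.support ⊆ J) (r : ℝ) :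
    ⟪cmb (fun i => b i r) c, cmb (fun i => g i r) c⟫_ℝ =
      ∑ i : J, ∑ j : J, (c i : ℝ) * (c j : ℝ) * ⟪b i r, g j r⟫_ℝ := by
  rw [cmb_eq _ c hJ, cmb_eq _ c hJ]
  exact (bil (fun i : J => (c i : ℝ)) (fun i : J => (c i : ℝ)) (fun i : J => b i r)
    (fun i : J => g i r)).symm

theorem good_c (h : CurveData κ l g a b v Λ G) (c : ℕ →₀ ℚ) :
    ∃ P : Set ℝ, (∀ᵐ t, t ∈ Ioo (0 : ℝ) 1 → t ∈ P) ∧
      ∀ s ∈ P, ∀ t ∈ P, 0 < s → s < t → t < 1 →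
        ⟪cmb (fun i => b i t) c, cmb (fun i => g i t) c⟫_ℝ
          - ⟪cmb (fun i => b i s) c, cmb (fun i => g i s) c⟫_ℝ ≤ ∫ r in s..t, Rc κ l g a b v c r := by
  have hR : Lo (Rc κ l g a b v c) := by
    have e : Rc κ l g a b v c = fun r => ∑ i : c.support, ∑ j : c.support, (c i : ℝ) * (c j : ℝ) *
      Qf κ l (fun i : c.support => g i) (fun i : c.support => a i) (fun i : c.support => b i)
        v i j r := by
      funext r; exact Rc_eq c le_rfl r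
    rw [e]
    exact Lo.sum fun i => Lo.sum fun j => (LoQ h c.support i j).const_mul _
  have hq : Lo fun r => ⟪cmb (fun i => b i r) c, cmb (fun i => g i r) c⟫_ℝ := by
    have e : (fun r => ⟪cmb (fun i => b i r) c, cmb (fun i => g i r) c⟫_ℝ) =
        fun r => ∑ i : c.support, ∑ j : c.support, (c i : ℝ) * (c j : ℝ) * ⟪b i r, g j r⟫_ℝ := by
      funext r; exact q_eq c le_rfl r
    rw [e]
    exact Lo.sum fun i => Lo.sum fun j => ((L2b h i).inner (L2g h j)).const_mul _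
  have hc : (1 / 2 : ℝ) ∈ Ioo (0 : ℝ) 1 := ⟨by norm_num, by norm_num⟩
  have hprim : ∀ s ∈ Ioo (0 : ℝ) 1, ∀ t ∈ Ioo (0 : ℝ) 1,
      (∫ r in (1 / 2)..t, Rc κ l g a b v c r) - (∫ r in (1 / 2)..s, Rc κ l g a b v c r) =
        ∫ r in s..t, Rc κ l g a b v c r := fun s hs t ht =>
    intervalIntegral.integral_interval_sub_left (hR _ hc _ ht) (hR _ hc _ hs)
  have hcont : ContinuousOn (fun t => ∫ r in (1 / 2)..t, Rc κ l g a b v c r) (Ioo 0 1) := by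
    refine cont_of_prim (f := Rc κ l g a b v c) fun α ω h0 h1 h2 =>
      ⟨h1, hR α ⟨h0, h1.trans_lt h2⟩ ω ⟨h0.trans_le h1, h2⟩, fun t ht => ?_⟩
    have := hprim α ⟨h0, h1.trans_lt h2⟩ t ⟨h0.trans_le ht.1, ht.2.trans_lt h2⟩
    linarith
  obtain ⟨P, hP1, hP2⟩ := mono_good (u := fun t =>
    ⟪cmb (fun i => b i t) c, cmb (fun i => g i t) c⟫_ℝ - ∫ r in (1 / 2)..t, Rc κ l g a b v c r)
    (hq.sub (Lo.of_cont hcont)) (by
      filter_upwards [h.ricc c, ae_restrict_mem measurableSet_Ioo] with s hs hsI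
      filter_upwards [hs, ae_restrict_mem measurableSet_Ioo] with t ht htI
      have := hprim s hsI t ⟨hsI.1.trans htI.1, htI.2⟩
      have h2 : ⟪cmb (fun i => b i t) c, cmb (fun i => g i t) c⟫_ℝ
        - ⟪cmb (fun i => b i s) c, cmb (fun i => g i s) c⟫_ℝ ≤ ∫ r in s..t, Rc κ l g a b v c r := ht
      linarith)
  refine ⟨P, hP1, fun s hs t ht h0 h1 h2 => ?_⟩
  have h3 := hP2 s hs t ht h0 h1 h2
  have h4 := hprim s ⟨h0, h1.trans h2⟩ t ⟨h0.trans h1, h2⟩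
  linarith

/-- pointwise conditions -/
structure Gd (l : ℝ) (g a b : ℕ → ℝ → E) (v : ℝ → E) (G : ℕ → ℕ → ℝ → ℝ) (p : ℕ → ℝ → ℝ)
    (t : ℝ) : Prop where
  vn : ‖v t‖ = l
  gram : ∀ i j, G i j t = ⟪g i t, g j t⟫_ℝ
  pe : ∀ i, p i t = ⟪g i t, v t⟫_ℝ
  vs : v t ∈ (Submodule.span ℝ (range fun j => g j t)).topologicalClosure
  as : ∀ i, a i t ∈ (Submodule.span ℝ (range fun j => g j t)).topologicalClosure
  symm : ∀ i j, ⟪b i t, g j t⟫_ℝ = ⟪g i t, b j t⟫_ℝ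

/-- the good set of times -/
theorem good (h : CurveData κ l g a b v Λ G) {p : ℕ → ℝ → ℝ}
    (hp : ∀ i, ∀ᵐ t ∂(volume.restrict (Ioo (0 : ℝ) 1)), p i t = ⟪g i t, v t⟫_ℝ) :
    ∃ P : Set ℝ, P ⊆ Ioo 0 1 ∧ (∀ᵐ t, t ∈ Ioo (0 : ℝ) 1 → t ∈ P) ∧
      (∀ t ∈ P, Gd l g a b v G p t) ∧
      ∀ s ∈ P, ∀ t ∈ P, s < t → ∀ c : ℕ →₀ ℚ,
        ⟪cmb (fun i => b i t) c, cmb (fun i => g i t) c⟫_ℝ
          - ⟪cmb (fun i => b i s) c, cmb (fun i => g i s) c⟫_ℝ ≤ ∫ r in s..t, Rc κ l g a b v c r := by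
  choose P hP1 hP2 using good_c h
  refine ⟨{t | t ∈ Ioo (0 : ℝ) 1 ∧ (∀ c, t ∈ P c) ∧ Gd l g a b v G p t}, fun t ht => ht.1, ?_,
    fun t ht => ht.2.2, fun s hs t ht hst c => hP2 c s (hs.2.1 c) t (ht.2.1 c) hs.1.1 hst ht.1.2⟩
  filter_upwards [ae_all_iff.2 hP1, un h.vnorm, ae_all_iff.2 fun i => ae_all_iff.2 fun j =>
    un (h.gram i j), ae_all_iff.2 fun i => un (hp i), un h.v_span, un h.a_span, un h.symm] with
    t h1 h2 h3 h4 h5 h6 h7 ht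
  exact ⟨ht, fun c => h1 c ht, ⟨h2 ht, fun i j => h3 i j ht, fun i => h4 i ht, h5 ht, h6 ht, h7 ht⟩⟩

theorem rat_real {J : Type*} [Fintype J] {D : J → J → ℝ}
    (h : ∀ q : J → ℚ, ∑ i, ∑ j, (q i : ℝ) * (q j : ℝ) * D i j ≤ 0) (ζ : J → ℝ) :
    ∑ i, ∑ j, ζ i * ζ j * D i j ≤ 0 := by
  have hd : DenseRange (Pi.map (fun _ : J => ((↑) : ℚ → ℝ))) :=
    DenseRange.piMap fun _ => Rat.denseRange_cast
  have hcl : IsClosed {ζ : J → ℝ | ∑ i, ∑ j, ζ i * ζ j * D i j ≤ 0} := by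
    refine isClosed_le ?_ continuous_const
    exact continuous_finsetSum _ fun i _ => continuous_finsetSum _ fun j _ =>
      ((continuous_apply i).mul (continuous_apply j)).mul continuous_const
  have hsub : range (Pi.map (fun _ : J => ((↑) : ℚ → ℝ))) ⊆
      {ζ : J → ℝ | ∑ i, ∑ j, ζ i * ζ j * D i j ≤ 0} := by
    rintro _ ⟨q, rfl⟩
    exact h q
  exact hcl.closure_subset_iff.2 hsub (hd ζ)

theorem ric_real (h : CurveData κ l g a b v Λ G) {s t : ℝ} (hs : s ∈ Ioo (0 : ℝ) 1)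
    (ht : t ∈ Ioo (0 : ℝ) 1)
    (hc : ∀ c : ℕ →₀ ℚ, ⟪cmb (fun i => b i t) c, cmb (fun i => g i t) c⟫_ℝ
          - ⟪cmb (fun i => b i s) c, cmb (fun i => g i s) c⟫_ℝ ≤ ∫ r in s..t, Rc κ l g a b v c r)
    (J : Finset ℕ) (ζ : J → ℝ) :
    ∑ i : J, ∑ j : J, ζ i * ζ j * (⟪b i t, g j t⟫_ℝ - ⟪b i s, g j s⟫_ℝ) ≤
      ∑ i : J, ∑ j : J, ζ i * ζ j * ∫ r in s..t,
        Qf κ l (fun i : J => g i) (fun i : J => a i) (fun i : J => b i) v i j r := by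
  have key := rat_real (J := J) (D := fun i j => (⟪b i t, g j t⟫_ℝ - ⟪b i s, g j s⟫_ℝ) -
    ∫ r in s..t, Qf κ l (fun i : J => g i) (fun i : J => a i) (fun i : J => b i) v i j r) ?_ ζ
  · simp only [mul_sub (ζ _ * ζ _) (_ - _), Finset.sum_sub_distrib] at key
    simp only [mul_sub (ζ _ * ζ _), Finset.sum_sub_distrib] at key ⊢
    linarith
  · intro q
    classical
    set c : ℕ →₀ ℚ := Finsupp.onFinset J (fun n => if h : n ∈ J then q ⟨n, h⟩ else 0)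
      (fun n hn => by
        by_contra hc
        exact hn (by simp [hc])) with hcdef
    have hcJ : c.support ⊆ J := Finsupp.support_onFinset_subset
    have hcq : ∀ i : J, c i = q i := fun i => by simp [hcdef]
    have h1 := hc c
    rw [q_eq c hcJ, q_eq c hcJ] at h1
    have h2 : ∫ r in s..t, Rc κ l g a b v c r = ∑ i : J, ∑ j : J, (c i : ℝ) * (c j : ℝ) *
        ∫ r in s..t, Qf κ l (fun i : J => g i) (fun i : J => a i) (fun i : J => b i) v i j r := by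
      simp only [Rc_eq c hcJ]
      rw [intervalIntegral.integral_finsetSum]
      · refine Finset.sum_congr rfl fun i _ => ?_
        rw [intervalIntegral.integral_finsetSum]
        · refine Finset.sum_congr rfl fun j _ => ?_
          rw [intervalIntegral.integral_const_mul]
        · exact fun j _ => (LoQ h J i j s hs t ht).const_mul _
      · exact fun i _ => (Lo.sum fun j => (LoQ h J i j).const_mul _) s hs t ht
    rw [h2] at h1
    simp only [hcq] at h1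
    simp only [mul_sub ((q _ : ℝ) * (q _ : ℝ)), Finset.sum_sub_distrib]
    linarith

end Vale.Agent.P233.H3
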