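import Vale.Agent.P233.H3.Data
import Vale.Agent.P233.H761.Riccati5

/-! **Block E45**: the comparison along one curve. -/

open MeasureTheory Set intervalIntegral Filter Topology
open scoped ENNReal NNReal Interval InnerProductSpace

set_option linter.all false

namespace Vale.Agent.P233.H3

variable {E : Type*} [NormedAddCommGroup E] [InnerProductSpace ℝ E]
variable {κ l : ℝ} {g a b : ℕ → ℝ → E} {v : ℝ → E} {Λ : ℝ → ℝ} {G : ℕ → ℕ → ℝ → ℝ}
  {bb bb' : ℝ → ℝ}

theorem cont_nu (hm : H761.Model (κ * l ^ 2) 1 bb bb') :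
    ContinuousOn (nu l (mu bb bb')) (Ioo 0 1) := by
  unfold nu
  refine ContinuousOn.mul (ContinuousOn.sub ?_ (continuousOn_mu hm)) continuousOn_const
  exact continuousOn_const.div continuousOn_id fun t ht => ht.1.ne'

/-- the bound from the interval `[α,ω]` -/
theorem bound_of_interval (h : CurveData κ l g a b v Λ G) (hm : H761.Model (κ * l ^ 2) 1 bb bb')
    {C₁ : ℝ} (hC₁ : ∀ t ∈ Ioo (0 : ℝ) 1, bb t ≤ C₁ * t) {p : ℕ → ℝ → ℝ}
    (hp : ∀ i, ∀ s ∈ Ioo (0 : ℝ) 1, ∀ t ∈ Ioo (0 : ℝ) 1,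
      p i t - p i s = ∫ r in s..t, ⟪a i r, v r⟫_ℝ)
    {P : Set ℝ} (hP0 : P ⊆ Ioo 0 1) (hP1 : ∀ᵐ t, t ∈ Ioo (0 : ℝ) 1 → t ∈ P)
    (hP2 : ∀ t ∈ P, Gd l g a b v G p t)
    (hP3 : ∀ s ∈ P, ∀ t ∈ P, s < t → ∀ c : ℕ →₀ ℚ,
        ⟪cmb (fun i => b i t) c, cmb (fun i => g i t) c⟫_ℝ
          - ⟪cmb (fun i => b i s) c, cmb (fun i => g i s) c⟫_ℝ ≤ ∫ r in s..t, Rc κ l g a b v c r)
    (c : ℕ →₀ ℚ) {α ω : ℝ} (hα : α ∈ P) (hω : ω ∈ P) (hαω : α < ω)
    (hz : 0 < ⟪cmb (fun i => b i ω) c, cmb (fun i => g i ω) c⟫_ℝ -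
      (mu bb bb' ω * ‖cmb (fun i => g i ω) c‖ ^ 2 +
        nu l (mu bb bb') ω * ⟪cmb (fun i => g i ω) c, v ω⟫_ℝ ^ 2)) :
    1 / Cc l C₁ (bb ω) ω (‖cmb (fun i => g i ω) c‖ ^ 2) ⟪cmb (fun i => g i ω) c, v ω⟫_ℝ *
      (1 / α - 1 / ω) ≤ 1 / (⟪cmb (fun i => b i ω) c, cmb (fun i => g i ω) c⟫_ℝ -
      (mu bb bb' ω * ‖cmb (fun i => g i ω) c‖ ^ 2 +
        nu l (mu bb bb') ω * ⟪cmb (fun i => g i ω) c, v ω⟫_ℝ ^ 2)) := by
  classical
  have hα0 : 0 < α := (hP0 hα).1
  have hω1 : ω < 1 := (hP0 hω).2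
  have hI : Icc α ω ⊆ Ioo 0 1 := fun t ht => ⟨hα0.trans_le ht.1, ht.2.trans_lt hω1⟩
  obtain ⟨k, hk⟩ := h.rank
  obtain ⟨F, hF1, hF2⟩ := cover (S := Icc α ω) isCompact_Icc isOpen_Ioo hI (G_cont h)
    (fun t ht => (hk t ht).1)
  set J : Finset ℕ := F.biUnion id ∪ c.support with hJ
  have hFJ : ∀ s ∈ F, s ⊆ J := fun s hs =>
    (Finset.subset_biUnion_of_mem id hs).trans Finset.subset_union_left
  have hcJ : c.support ⊆ J := Finset.subset_union_right
  -- the coefficients of the linear ODE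
  let X : J → J → ℝ → ℝ := fun i j r => mu bb bb' r * G j i r +
    nu l (mu bb bb') r * (p i r * p j r) - ⟪g j r, a i r⟫_ℝ
  let A : J → J → ℝ → ℝ := fun k i r => ∑ j : J, Rm F (fun i j => G i j r) k j * X i j r
  have hpc : ∀ i, ContinuousOn (p i) (Ioo 0 1) := fun i =>
    cont_of_prim fun _ _ h0 h1 h2 => p_prim h (hp i) h0 h1 h2
  have hX : ∀ i j, Lo (X i j) := by
    intro i j
    have e1 : ContinuousOn (fun r => mu bb bb' r * G j i r +
        nu l (mu bb bb') r * (p i r * p j r)) (Ioo 0 1) :=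
      ((continuousOn_mu hm).mul (G_cont h j i)).add ((cont_nu hm).mul ((hpc i).mul (hpc j)))
    exact (Lo.of_cont e1).sub ((L2g h j).inner (L2a h i))
  have hA : ∀ k i, IntervalIntegrable (A k i) volume α ω := by
    intro k i
    have e : A k i = ∑ j : J, fun r => Rm F (fun i j => G i j r) k j * X i j r := by
      funext r; simp [A, Finset.sum_apply]
    rw [e]
    refine IntervalIntegrable.sum _ fun j _ => ?_
    refine (hX i j α (hP0 hα) ω (hP0 hω)).continuousOn_mul ?_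
    rw [uIcc_of_le hαω.le]
    exact continuousOn_Rm (fun i j => (G_cont h i j).mono hI) hF2 k j
  obtain ⟨cc, hcω, hcP⟩ := ode_coeff hαω.le hA (fun i : J => (c i : ℝ))
  -- the local data
  have hloc : Loc κ l (fun i : J => g i) (fun i : J => a i) (fun i : J => b i) v
      (fun i j : J => G i j) (fun i : J => p i) P α ω := by
    refine ⟨hα0, hαω, hα, hω, ?_, fun t ht => (hP2 t ht).vn, fun t ht i j => (hP2 t ht).gram i j,
      fun t ht i => (hP2 t ht).pe i, fun t ht i j => (hP2 t ht).symm i j,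
      fun i j => G_prim h i j hα0 hαω.le hω1, fun i => p_prim h (hp i) hα0 hαω.le hω1,
      fun i j => (L2b h i).inner (L2g h j) α (hP0 hα) ω (hP0 hω),
      fun i j => LoQ h J i j α (hP0 hα) ω (hP0 hω), ?_⟩
    · filter_upwards [hP1] with t ht h1
      exact ht ⟨hα0.trans h1.1, h1.2.trans hω1⟩
    · intro s hs t ht _ hst _ ζ
      exact ric_real h (hP0 hs) (hP0 ht) (hP3 s hs t ht hst) J ζ
  have hpar : Par l (fun i : J => g i) (fun i : J => a i) v bb bb' P α ω cc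
      (fun k r => ∑ i, A k i r * cc i r) := by
    intro t ht htI
    have hgd := hP2 t ht
    have hw : ∀ i : J, ∑ k : J, A k i t • g k t =
        MX (mu bb bb' t) (nu l (mu bb bb') t) (g i t) (v t) - a i t := by
      intro i
      have hmem : MX (mu bb bb' t) (nu l (mu bb bb') t) (g i t) (v t) - a i t ∈
          (Submodule.span ℝ (range fun j => g j t)).topologicalClosure := by
        refine Submodule.sub_mem _ (Submodule.add_mem _ (Submodule.smul_mem _ _ ?_)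
          (Submodule.smul_mem _ _ hgd.vs)) (hgd.as i)
        exact Submodule.le_topologicalClosure _ (Submodule.subset_span ⟨i, rfl⟩)
      have h1 := repro_Rm (g := fun j => g j t) (G := fun i j => G i j t) (k := k)
        hgd.gram (fun s hs => (hk t (hP0 ht)).2 s hs) hF1 (hF2 t htI) hFJ hmem
      rw [← h1]
      refine Finset.sum_congr rfl fun k _ => ?_
      rw [← Finset.sum_smul]
      congr 1
      refine Finset.sum_congr rfl fun j _ => ?_
      congr 1
      change mu bb bb' t * G j i t + nu l (mu bb bb') t * (p i t * p j t) - ⟪g j t, a i t⟫_ℝ = _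
      rw [hgd.gram, hgd.pe, hgd.pe, inner_sub_right, MX, inner_add_right, real_inner_smul_right,
        real_inner_smul_right]
      ring
    have e1 : ∑ k : J, (∑ i : J, A k i t * cc i t) • g k t =
        ∑ i : J, cc i t • ∑ k : J, A k i t • g k t := by
      simp only [Finset.sum_smul, Finset.smul_sum, smul_smul]
      rw [Finset.sum_comm]
      refine Finset.sum_congr rfl fun i _ => Finset.sum_congr rfl fun k _ => ?_
      rw [mul_comm]
    change ∑ k : J, (∑ i : J, A k i t * cc i t) • g k t = _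
    rw [e1]
    simp only [hw, smul_sub, Finset.sum_sub_distrib]
    rw [MX_sum]
  have e1 : ∑ i : J, cc i ω • g i ω = cmb (fun i => g i ω) c := by
    rw [cmb_eq _ c hcJ]
    exact Finset.sum_congr rfl fun i _ => by rw [hcω]
  have e2 : ∑ i : J, cc i ω • b i ω = cmb (fun i => b i ω) c := by
    rw [cmb_eq _ c hcJ]
    exact Finset.sum_congr rfl fun i _ => by rw [hcω]
  have e3 : zz l (fun i : J => g i) (fun i : J => b i) v bb bb' cc ω =
      ⟪cmb (fun i => b i ω) c, cmb (fun i => g i ω) c⟫_ℝ -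
      (mu bb bb' ω * ‖cmb (fun i => g i ω) c‖ ^ 2 +
        nu l (mu bb bb') ω * ⟪cmb (fun i => g i ω) c, v ω⟫_ℝ ^ 2) := by
    rw [zz, Hm, e1, e2, inner_sub_left, inner_MX]
  have key := loc_final hloc hm hω1 hcP hpar hC₁ (by rw [e3]; exact hz)
  rw [e3, e1] at key
  exact key

/-- E4 + E5 with an abstract model function -/
theorem e45_model (h : CurveData κ l g a b v Λ G) (hm : H761.Model (κ * l ^ 2) 1 bb bb') :
    ∀ᵐ t ∂(volume.restrict (Ioo (0 : ℝ) 1)), ∀ c : ℕ →₀ ℚ,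
      ⟪cmb (fun i => b i t) c, cmb (fun i => g i t) c⟫_ℝ ≤
        mu bb bb' t * ‖cmb (fun i => g i t) c‖ ^ 2 +
          nu l (mu bb bb') t * ⟪cmb (fun i => g i t) c, v t⟫_ℝ ^ 2 := by
  obtain ⟨C₁, hC₁⟩ := hm.lin
  choose p hp1 hp2 using h.p_ac
  obtain ⟨P, hP0, hP1, hP2, hP3⟩ := good h hp1
  rw [ae_restrict_iff' measurableSet_Ioo]
  filter_upwards [hP1] with ω hω hωI c
  have hωP := hω hωI
  by_contra hcon
  rw [not_le, ← sub_pos] at hcon
  set D := ⟪cmb (fun i => b i ω) c, cmb (fun i => g i ω) c⟫_ℝ -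
      (mu bb bb' ω * ‖cmb (fun i => g i ω) c‖ ^ 2 +
        nu l (mu bb bb') ω * ⟪cmb (fun i => g i ω) c, v ω⟫_ℝ ^ 2) with hD
  set C := Cc l C₁ (bb ω) ω (‖cmb (fun i => g i ω) c‖ ^ 2) ⟪cmb (fun i => g i ω) c, v ω⟫_ℝ with hC
  have key : ∀ α ∈ P, α < ω → 1 / C * (1 / α - 1 / ω) ≤ 1 / D := fun α hα hαω =>
    bound_of_interval h hm hC₁ hp2 hP0 hP1 hP2 hP3 c hα hωP hαω hcon
  have hCpos : 0 < C := by
    have hn : 0 ≤ ‖cmb (fun i => g i ω) c‖ ^ 2 -
        (l ^ 2)⁻¹ * ⟪cmb (fun i => g i ω) c, v ω⟫_ℝ ^ 2 := by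
      by_cases hl : l = 0
      · simp [hl]
      · have hl2 : 0 < l ^ 2 := by positivity
        have k1 := abs_real_inner_le_norm (cmb (fun i => g i ω) c) (v ω)
        rw [(hP2 ω hωP).vn] at k1
        have k2 : ⟪cmb (fun i => g i ω) c, v ω⟫_ℝ ^ 2 ≤ (‖cmb (fun i => g i ω) c‖ * l) ^ 2 := by
          rw [← sq_abs]
          exact pow_le_pow_left₀ (abs_nonneg _) k1 2
        rw [mul_pow] at k2
        have k3 : (l ^ 2)⁻¹ * ⟪cmb (fun i => g i ω) c, v ω⟫_ℝ ^ 2 ≤
            ‖cmb (fun i => g i ω) c‖ ^ 2 := by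
          rw [inv_mul_le_iff₀ hl2]
          linarith
        linarith
    rw [hC, Cc]
    have h1 := mul_nonneg (mul_nonneg hn (mul_self_nonneg ((bb ω)⁻¹))) (sq_nonneg C₁)
    have h2 : 0 ≤ (l ^ 2)⁻¹ * (⟪cmb (fun i => g i ω) c, v ω⟫_ℝ * (1 / ω)) ^ 2 := by positivity
    linarith
  -- choose `α` small
  set ε : ℝ := min ω (1 / (C / D + 1 / ω + 1)) with hε
  have hε0 : 0 < ε := lt_min hωI.1 (by
    have := hωI.1
    positivity)
  obtain ⟨α, hαP, hα0, hαε⟩ := denseIn_of_ae (P := P) (α := 0) (β := 1) hP1 0 ε le_rfl hε0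
    ((min_le_left _ _).trans hωI.2.le)
  have h1 := key α hαP (hαε.trans_le (min_le_left _ _))
  have h2 : C / D + 1 / ω + 1 < 1 / α := by
    have h3 := hαε.trans_le (min_le_right _ _)
    have h4 : 0 < C / D + 1 / ω + 1 := by
      have := hωI.1
      positivity
    rw [lt_div_iff₀ hα0]
    rw [lt_div_iff₀ h4] at h3
    linarith
  have h5 : 1 / α - 1 / ω ≤ C / D := by
    rw [one_div_mul_eq_div, div_le_iff₀ hCpos] at h1
    refine h1.trans (le_of_eq ?_)
    ring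
  linarith

theorem model0 (κ : ℝ) : H761.Model (κ * (0 : ℝ) ^ 2) 1 (fun t => t) (fun _ => 1) := by
  refine ⟨fun t _ => hasDerivAt_id t, fun t _ => ?_, fun t ht => ht.1, ⟨1, fun t _ => by simp⟩⟩
  simpa using hasDerivAt_const t (1 : ℝ)

theorem mu_model {κ l t : ℝ} (hl : 0 < l) :
    mu (H761.sn κ l) (H761.cs κ l) t = l * cs κ (l * t) / sn κ (l * t) := by
  unfold mu H761.sn H761.cs sn cs
  split_ifs with h1 h2
  · by_cases ht : t = 0
    · simp [ht]
    · field_simp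
  · rw [mul_assoc (√κ) l t]
    have : √κ ≠ 0 := (Real.sqrt_pos.2 h2).ne'
    by_cases hs : Real.sin (√κ * (l * t)) = 0
    · simp [hs]
    · field_simp
  · rw [mul_assoc (√(-κ)) l t]
    have : √(-κ) ≠ 0 := (Real.sqrt_pos.2 (by
      have : κ ≤ 0 := not_lt.1 h2
      have : κ < 0 := lt_of_le_of_ne this h1
      linarith)).ne'
    by_cases hs : Real.sinh (√(-κ) * (l * t)) = 0
    · simp [hs]
    · field_simp

/-- **Block E45.** -/
theorem blk_E45 : Blk_E45 := by
  intro E _ _ _ κ l g a b v Λ G h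
  by_cases hl : l = 0
  · subst hl
    filter_upwards [e45_model h (model0 κ)] with t ht c
    refine (ht c).trans (le_of_eq ?_)
    simp [Mv, mu, nu]
    ring
  · have hl0 : 0 < l := lt_of_le_of_ne h.l_nonneg (Ne.symm hl)
    have hm := H761.model (κ := κ) (T := 1) hl0 (fun _ => by
      have := h.l_small
      linarith)
    filter_upwards [e45_model h hm, ae_restrict_mem measurableSet_Ioo] with t ht htI c
    refine (ht c).trans (le_of_eq ?_)
    have ht0 : t ≠ 0 := htI.1.ne'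
    rw [Mv, if_neg hl, nu, mu_model hl0]
    field_simp
    ring

end Vale.Agent.P233.H3
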