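import Vale.Agent.P233.H3.Blow

/-! The Riccati argument along one curve, on a compact interval, with absolutely continuous
coefficients. -/

open MeasureTheory Set intervalIntegral Filter Topology
open scoped ENNReal NNReal Interval InnerProductSpace

set_option linter.all false

namespace Vale.Agent.P233.H3

variable {E : Type*} [NormedAddCommGroup E] [InnerProductSpace ℝ E]

section alg

variable {K : Type*} [Fintype K]

theorem bil (α β : K → ℝ) (f h : K → E) :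
    ∑ i, ∑ j, α i * β j * ⟪f i, h j⟫_ℝ = ⟪∑ i, α i • f i, ∑ j, β j • h j⟫_ℝ := by
  rw [sum_inner]
  refine Finset.sum_congr rfl fun i _ => ?_
  rw [inner_sum]
  refine Finset.sum_congr rfl fun j _ => ?_
  rw [inner_smul_left, inner_smul_right]
  simp only [conj_trivial]
  ring

/-- the matrix of the right hand side of the Riccati inequality -/
noncomputable def Qf (κ l : ℝ) (g a b : K → ℝ → E) (v : ℝ → E) (i j : K) (r : ℝ) : ℝ :=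
  ⟪b i r, a j r⟫_ℝ + ⟪b j r, a i r⟫_ℝ - ⟪b i r, b j r⟫_ℝ
    - κ * (⟪g i r, g j r⟫_ℝ * l ^ 2 - ⟪g i r, v r⟫_ℝ * ⟪g j r, v r⟫_ℝ)

theorem Qf_symm (κ l : ℝ) (g a b : K → ℝ → E) (v : ℝ → E) (i j : K) (r : ℝ) :
    Qf κ l g a b v i j r = Qf κ l g a b v j i r := by
  unfold Qf
  rw [real_inner_comm (b i r) (b j r), real_inner_comm (g i r) (g j r)]
  ring

theorem quadQ (κ l : ℝ) (g a b : K → ℝ → E) (v : ℝ → E) (r : ℝ) (ζ : K → ℝ) :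
    ∑ i, ∑ j, ζ i * ζ j * Qf κ l g a b v i j r =
      2 * ⟪∑ i, ζ i • b i r, ∑ i, ζ i • a i r⟫_ℝ - ‖∑ i, ζ i • b i r‖ ^ 2
        - κ * (‖∑ i, ζ i • g i r‖ ^ 2 * l ^ 2 - ⟪∑ i, ζ i • g i r, v r⟫_ℝ ^ 2) := by
  have e1 : ∑ i, ∑ j, ζ i * ζ j * ⟪b i r, a j r⟫_ℝ = ⟪∑ i, ζ i • b i r, ∑ i, ζ i • a i r⟫_ℝ :=
    bil ζ ζ (fun i => b i r) (fun i => a i r)
  have e2 : ∑ i, ∑ j, ζ i * ζ j * ⟪b j r, a i r⟫_ℝ = ⟪∑ i, ζ i • b i r, ∑ i, ζ i • a i r⟫_ℝ := by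
    rw [← e1, Finset.sum_comm]
    refine Finset.sum_congr rfl fun i _ => Finset.sum_congr rfl fun j _ => ?_
    ring
  have e3 : ∑ i, ∑ j, ζ i * ζ j * ⟪b i r, b j r⟫_ℝ = ‖∑ i, ζ i • b i r‖ ^ 2 := by
    rw [← real_inner_self_eq_norm_sq]
    exact bil ζ ζ (fun i => b i r) (fun i => b i r)
  have e4 : ∑ i, ∑ j, ζ i * ζ j * ⟪g i r, g j r⟫_ℝ = ‖∑ i, ζ i • g i r‖ ^ 2 := by
    rw [← real_inner_self_eq_norm_sq]
    exact bil ζ ζ (fun i => g i r) (fun i => g i r)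
  have e5 : ∑ i, ∑ j, ζ i * ζ j * (⟪g i r, v r⟫_ℝ * ⟪g j r, v r⟫_ℝ) =
      ⟪∑ i, ζ i • g i r, v r⟫_ℝ ^ 2 := by
    rw [sum_inner, sq, Finset.sum_mul_sum]
    refine Finset.sum_congr rfl fun i _ => Finset.sum_congr rfl fun j _ => ?_
    rw [real_inner_smul_left, real_inner_smul_left]
    ring
  rw [← e3, ← e4, ← e5, two_mul]
  nth_rewrite 1 [← e1]
  rw [← e2]
  simp only [Qf, Finset.mul_sum, Finset.sum_mul, ← Finset.sum_add_distrib, ← Finset.sum_sub_distrib]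
  refine Finset.sum_congr rfl fun i _ => Finset.sum_congr rfl fun j _ => ?_
  ring

end alg

/-- the field `M X` -/
noncomputable def MX (μ ν : ℝ) (x v : E) : E := μ • x + (ν * ⟪x, v⟫_ℝ) • v

theorem inner_MX (μ ν : ℝ) (x v : E) : ⟪MX μ ν x v, x⟫_ℝ = μ * ‖x‖ ^ 2 + ν * ⟪x, v⟫_ℝ ^ 2 := by
  rw [MX, inner_add_left, real_inner_smul_left, real_inner_smul_left, real_inner_self_eq_norm_sq,
    real_inner_comm x v]
  ring

theorem inner_MX_v (μ ν : ℝ) (x v : E) :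
    ⟪MX μ ν x v, v⟫_ℝ = μ * ⟪x, v⟫_ℝ + ν * ⟪x, v⟫_ℝ * ‖v‖ ^ 2 := by
  rw [MX, inner_add_left, real_inner_smul_left, real_inner_smul_left, real_inner_self_eq_norm_sq]

theorem norm_MX (μ ν : ℝ) (x v : E) :
    ‖MX μ ν x v‖ ^ 2 =
      μ ^ 2 * ‖x‖ ^ 2 + 2 * μ * ν * ⟪x, v⟫_ℝ ^ 2 + ν ^ 2 * ⟪x, v⟫_ℝ ^ 2 * ‖v‖ ^ 2 := by
  rw [MX, norm_add_sq_real, norm_smul, norm_smul, real_inner_smul_left, real_inner_smul_right,
    mul_pow, mul_pow, Real.norm_eq_abs, Real.norm_eq_abs, sq_abs, sq_abs]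
  ring

theorem MX_sum {K : Type*} [Fintype K] (μ ν : ℝ) (c : K → ℝ) (g : K → E) (v : E) :
    ∑ i, c i • MX μ ν (g i) v = MX μ ν (∑ i, c i • g i) v := by
  simp only [MX, smul_add, Finset.sum_add_distrib, sum_inner, Finset.mul_sum, Finset.sum_smul,
    Finset.smul_sum, smul_smul, real_inner_smul_left]
  congr 1
  · refine Finset.sum_congr rfl fun i _ => ?_
    rw [mul_comm]
  · refine Finset.sum_congr rfl fun i _ => ?_
    congr 1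
    ring

/-- The data on `[α,ω]`, for finitely many vectors. -/
structure Loc {K : Type*} [Fintype K] (κ l : ℝ) (g a b : K → ℝ → E) (v : ℝ → E)
    (G : K → K → ℝ → ℝ) (p : K → ℝ → ℝ) (P : Set ℝ) (α ω : ℝ) : Prop where
  α0 : 0 < α
  αω : α < ω
  hα : α ∈ P
  hω : ω ∈ P
  Pae : ∀ᵐ t, t ∈ Ioo α ω → t ∈ P
  vn : ∀ t ∈ P, ‖v t‖ = l
  gram : ∀ t ∈ P, ∀ i j, G i j t = ⟪g i t, g j t⟫_ℝ
  pe : ∀ t ∈ P, ∀ i, p i t = ⟪g i t, v t⟫_ℝ
  symm : ∀ t ∈ P, ∀ i j, ⟪b i t, g j t⟫_ℝ = ⟪g i t, b j t⟫_ℝ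
  Gp : ∀ i j, Prim (G i j) (fun r => ⟪a i r, g j r⟫_ℝ + ⟪g i r, a j r⟫_ℝ) α ω
  pp : ∀ i, Prim (p i) (fun r => ⟪a i r, v r⟫_ℝ) α ω
  Si : ∀ i j, IntervalIntegrable (fun r => ⟪b i r, g j r⟫_ℝ) volume α ω
  Qi : ∀ i j, IntervalIntegrable (Qf κ l g a b v i j) volume α ω
  ric : ∀ s ∈ P, ∀ t ∈ P, α ≤ s → s < t → t ≤ ω → ∀ ζ : K → ℝ,
    ∑ i, ∑ j, ζ i * ζ j * (⟪b i t, g j t⟫_ℝ - ⟪b i s, g j s⟫_ℝ) ≤
      ∑ i, ∑ j, ζ i * ζ j * ∫ r in s..t, Qf κ l g a b v i j r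

theorem prim_ae {F f f' : ℝ → ℝ} {α ω : ℝ} {P : Set ℝ} (h : Prim F f α ω)
    (hP : ∀ᵐ t, t ∈ Ioo α ω → t ∈ P) (hf : ∀ t ∈ P, t ∈ Icc α ω → f t = f' t) :
    Prim F f' α ω := by
  refine h.congr_ae ?_
  filter_upwards [hP, Measure.ae_ne volume α, Measure.ae_ne volume ω] with t ht h1 h2 h3
  exact hf t (ht ⟨lt_of_le_of_ne h3.1 (Ne.symm h1), lt_of_le_of_ne h3.2 h2⟩) h3

theorem Prim.const_of_zero {F : ℝ → ℝ} {α ω : ℝ} (h : Prim F (fun _ => 0) α ω) {t : ℝ}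
    (ht : t ∈ Icc α ω) : F t = F ω := by
  have h1 := h.sub_eq ht (right_mem_Icc.2 h.le)
  simp only [intervalIntegral.integral_zero] at h1
  linarith

section loc

variable {K : Type*} [Fintype K] {κ l : ℝ} {g a b : K → ℝ → E} {v : ℝ → E} {G : K → K → ℝ → ℝ}
  {p : K → ℝ → ℝ} {P : Set ℝ} {α ω : ℝ} {bb bb' : ℝ → ℝ} {c c' : K → ℝ → ℝ}

/-- the second coefficient -/
noncomputable def nu (l : ℝ) (μ : ℝ → ℝ) (r : ℝ) : ℝ := (1 / r - μ r) * (l ^ 2)⁻¹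

theorem rel {l : ℝ} {x v : E} (hv : ‖v‖ = l) : (l ^ 2)⁻¹ * l ^ 2 * ⟪x, v⟫_ℝ = ⟪x, v⟫_ℝ := by
  by_cases hl : l = 0
  · rw [hl, norm_eq_zero] at hv
    simp [hv]
  · rw [inv_mul_cancel₀ (pow_ne_zero 2 hl), one_mul]

/-- the square of the norm of `X` -/
noncomputable def x2 (G : K → K → ℝ → ℝ) (c : K → ℝ → ℝ) (r : ℝ) : ℝ :=
  ∑ i, ∑ j, c i r * c j r * G i j r

/-- the component of `X` along `v` -/
noncomputable def yy (p : K → ℝ → ℝ) (c : K → ℝ → ℝ) (r : ℝ) : ℝ := ∑ i, c i r * p i r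

theorem x2_eq (h : Loc κ l g a b v G p P α ω) {t : ℝ} (ht : t ∈ P) :
    x2 G c t = ‖∑ i, c i t • g i t‖ ^ 2 := by
  rw [x2, ← real_inner_self_eq_norm_sq, ← bil (fun i => c i t) (fun i => c i t)]
  simp only [h.gram t ht]

theorem yy_eq (h : Loc κ l g a b v G p P α ω) {t : ℝ} (ht : t ∈ P) :
    yy p c t = ⟪∑ i, c i t • g i t, v t⟫_ℝ := by
  rw [yy, sum_inner]
  refine Finset.sum_congr rfl fun i _ => ?_
  rw [real_inner_smul_left, h.pe t ht]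

theorem prim_x2 (h : Loc κ l g a b v G p P α ω) (hc : ∀ i, Prim (c i) (c' i) α ω) {μ : ℝ → ℝ}
    (hD : ∀ t ∈ P, t ∈ Icc α ω → ∑ i, c' i t • g i t =
      MX (μ t) (nu l μ t) (∑ i, c i t • g i t) (v t) - ∑ i, c i t • a i t) :
    Prim (x2 G c) (fun r => 2 * (μ r * x2 G c r + nu l μ r * yy p c r ^ 2)) α ω := by
  have h1 : Prim (x2 G c) (fun r => ∑ i, ∑ j, ((c' i r * c j r + c i r * c' j r) * G i j r +
      c i r * c j r * (⟪a i r, g j r⟫_ℝ + ⟪g i r, a j r⟫_ℝ))) α ω :=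
    Prim.sum _ h.αω.le fun i _ => Prim.sum _ h.αω.le fun j _ =>
      ((hc i).mul (hc j)).mul (h.Gp i j)
  refine prim_ae h1 h.Pae fun t ht hI => ?_
  have e1 := bil (fun i => c' i t) (fun i => c i t) (fun i => g i t) (fun i => g i t)
  have e2 := bil (fun i => c i t) (fun i => c' i t) (fun i => g i t) (fun i => g i t)
  have e3 := bil (fun i => c i t) (fun i => c i t) (fun i => a i t) (fun i => g i t)
  have e4 := bil (fun i => c i t) (fun i => c i t) (fun i => g i t) (fun i => a i t)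
  have e5 : ∑ i, ∑ j, ((c' i t * c j t + c i t * c' j t) * G i j t +
      c i t * c j t * (⟪a i t, g j t⟫_ℝ + ⟪g i t, a j t⟫_ℝ)) =
      ∑ i, ∑ j, c' i t * c j t * ⟪g i t, g j t⟫_ℝ + ∑ i, ∑ j, c i t * c' j t * ⟪g i t, g j t⟫_ℝ +
      ∑ i, ∑ j, c i t * c j t * ⟪a i t, g j t⟫_ℝ + ∑ i, ∑ j, c i t * c j t * ⟪g i t, a j t⟫_ℝ := by
    simp only [← Finset.sum_add_distrib, h.gram t ht]
    refine Finset.sum_congr rfl fun i _ => Finset.sum_congr rfl fun j _ => ?_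
    ring
  rw [e5, e1, e2, e3, e4, x2_eq h ht, yy_eq h ht, ← inner_MX, real_inner_comm (∑ i, c' i t • g i t),
    real_inner_comm (∑ i, c i t • a i t), hD t ht hI, inner_sub_left]
  ring

theorem prim_yy (h : Loc κ l g a b v G p P α ω) (hc : ∀ i, Prim (c i) (c' i) α ω) {μ : ℝ → ℝ}
    (hD : ∀ t ∈ P, t ∈ Icc α ω → ∑ i, c' i t • g i t =
      MX (μ t) (nu l μ t) (∑ i, c i t • g i t) (v t) - ∑ i, c i t • a i t) :
    Prim (yy p c) (fun r => yy p c r * (1 / r)) α ω := by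
  have h1 : Prim (yy p c) (fun r => ∑ i, (c' i r * p i r + c i r * ⟪a i r, v r⟫_ℝ)) α ω :=
    Prim.sum _ h.αω.le fun i _ => (hc i).mul (h.pp i)
  refine prim_ae h1 h.Pae fun t ht hI => ?_
  have e1 : ∑ i, (c' i t * p i t + c i t * ⟪a i t, v t⟫_ℝ) =
      ⟪∑ i, c' i t • g i t, v t⟫_ℝ + ⟪∑ i, c i t • a i t, v t⟫_ℝ := by
    rw [sum_inner, sum_inner, ← Finset.sum_add_distrib]
    refine Finset.sum_congr rfl fun i _ => ?_
    rw [real_inner_smul_left, real_inner_smul_left, h.pe t ht]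
  rw [e1, hD t ht hI, inner_sub_left, sub_add_cancel, inner_MX_v, h.vn t ht, yy_eq h ht]
  have e2 := rel (l := l) (x := ∑ i, c i t • g i t) (h.vn t ht)
  unfold nu
  linear_combination (1 / t - μ t) * e2

end loc

end Vale.Agent.P233.H3
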