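import Vale.Agent.P233.H3.Loc

/-! The Riccati argument along one curve, on a compact interval, second part. -/

open MeasureTheory Set intervalIntegral Filter Topology
open scoped ENNReal NNReal Interval InnerProductSpace

set_option linter.all false

namespace Vale.Agent.P233.H3

variable {E : Type*} [NormedAddCommGroup E] [InnerProductSpace ℝ E]

section model

variable {ρ : ℝ} {bb bb' : ℝ → ℝ}

/-- logarithmic derivative of the model function -/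
noncomputable def mu (bb bb' : ℝ → ℝ) (r : ℝ) : ℝ := bb' r / bb r

theorem hasDerivAt_mu (hm : H761.Model ρ 1 bb bb') {t : ℝ} (ht : t ∈ Ioo (0 : ℝ) 1) :
    HasDerivAt (mu bb bb') (-ρ - mu bb bb' t ^ 2) t := by
  have h0 : bb t ≠ 0 := (hm.pos t ht).ne'
  have h1 := (hm.d2 t ht).div (hm.d1 t ht) h0
  have e : (-(ρ * bb t) * bb t - bb' t * bb' t) / bb t ^ 2 = -ρ - mu bb bb' t ^ 2 := by
    unfold mu; field_simp
  rw [e] at h1
  exact h1

theorem continuousOn_mu (hm : H761.Model ρ 1 bb bb') : ContinuousOn (mu bb bb') (Ioo 0 1) :=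
  fun t ht => (hasDerivAt_mu hm ht).continuousAt.continuousWithinAt

theorem prim_mu (hm : H761.Model ρ 1 bb bb') {α ω : ℝ} (h0 : 0 < α) (h1 : α ≤ ω) (h2 : ω < 1) :
    Prim (mu bb bb') (fun r => -ρ - mu bb bb' r ^ 2) α ω := by
  have hI : Icc α ω ⊆ Ioo 0 1 := fun t ht => ⟨h0.trans_le ht.1, ht.2.trans_lt h2⟩
  refine Prim.of_hasDerivAt h1 (fun t ht => hasDerivAt_mu hm (hI ht)) ?_
  exact continuousOn_const.sub (((continuousOn_mu hm).mono hI).pow 2)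

theorem prim_inv {α ω : ℝ} (h0 : 0 < α) (h1 : α ≤ ω) :
    Prim (fun r => 1 / r) (fun r => -(1 / r ^ 2)) α ω := by
  have hI : ∀ t ∈ Icc α ω, t ≠ 0 := fun t ht => (h0.trans_le ht.1).ne'
  refine Prim.of_hasDerivAt h1 (fun t ht => ?_) ?_
  · have := hasDerivAt_inv (hI t ht)
    simpa [one_div] using this
  · refine ContinuousOn.neg (ContinuousOn.div continuousOn_const (continuousOn_id.pow 2) ?_)
    intro t ht
    exact pow_ne_zero 2 (hI t ht)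

theorem prim_binv (hm : H761.Model ρ 1 bb bb') {α ω : ℝ} (h0 : 0 < α) (h1 : α ≤ ω) (h2 : ω < 1) :
    Prim (fun r => (bb r)⁻¹) (fun r => -(mu bb bb' r * (bb r)⁻¹)) α ω := by
  have hI : Icc α ω ⊆ Ioo 0 1 := fun t ht => ⟨h0.trans_le ht.1, ht.2.trans_lt h2⟩
  have hne : ∀ t ∈ Icc α ω, bb t ≠ 0 := fun t ht => (hm.pos t (hI ht)).ne'
  have hbc : ContinuousOn bb (Icc α ω) := fun t ht =>
    (hm.d1 t (hI ht)).continuousAt.continuousWithinAt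
  refine Prim.of_hasDerivAt h1 (fun t ht => ?_) ?_
  · have h3 := (hm.d1 t (hI ht)).inv (hne t ht)
    have e : -bb' t / bb t ^ 2 = -(mu bb bb' t * (bb t)⁻¹) := by
      have := hne t ht
      unfold mu; field_simp
    rw [e] at h3
    exact h3
  · exact (((continuousOn_mu hm).mono hI).mul (hbc.inv₀ hne)).neg

end model

section loc

variable {K : Type*} [Fintype K] {κ l : ℝ} {g a b : K → ℝ → E} {v : ℝ → E} {G : K → K → ℝ → ℝ}
  {p : K → ℝ → ℝ} {P : Set ℝ} {α ω : ℝ} {bb bb' : ℝ → ℝ} {c c' : K → ℝ → ℝ}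

/-- `Σ c'_i g_i = M X - A X` -/
def Par (l : ℝ) (g a : K → ℝ → E) (v : ℝ → E) (bb bb' : ℝ → ℝ) (P : Set ℝ) (α ω : ℝ)
    (c c' : K → ℝ → ℝ) : Prop :=
  ∀ t ∈ P, t ∈ Icc α ω → ∑ i, c' i t • g i t =
    MX (mu bb bb' t) (nu l (mu bb bb') t) (∑ i, c i t • g i t) (v t) - ∑ i, c i t • a i t

theorem yy_form (h : Loc κ l g a b v G p P α ω) (hc : ∀ i, Prim (c i) (c' i) α ω)
    (hD : Par l g a v bb bb' P α ω c c') {t : ℝ} (ht : t ∈ Icc α ω) :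
    yy p c t * (1 / t) = yy p c ω * (1 / ω) := by
  have h1 := (prim_yy h hc hD).mul (prim_inv h.α0 h.αω.le)
  have h2 : Prim (fun r => yy p c r * (1 / r)) (fun _ => 0) α ω := by
    refine prim_ae h1 h.Pae fun t _ ht => ?_
    have : t ≠ 0 := (h.α0.trans_le ht.1).ne'
    field_simp
    ring
  exact h2.const_of_zero ht

theorem nn_form (h : Loc κ l g a b v G p P α ω) (hm : H761.Model (κ * l ^ 2) 1 bb bb')
    (h1 : ω < 1) (hc : ∀ i, Prim (c i) (c' i) α ω) (hD : Par l g a v bb bb' P α ω c c') {t : ℝ}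
    (ht : t ∈ Icc α ω) :
    (x2 G c t - (l ^ 2)⁻¹ * yy p c t ^ 2) * ((bb t)⁻¹ * (bb t)⁻¹) =
      (x2 G c ω - (l ^ 2)⁻¹ * yy p c ω ^ 2) * ((bb ω)⁻¹ * (bb ω)⁻¹) := by
  have hy := prim_yy h hc hD
  have hx := prim_x2 h hc hD
  have hb := prim_binv hm h.α0 h.αω.le h1
  have h2 := (hx.sub ((hy.mul hy).const_mul ((l ^ 2)⁻¹))).mul (hb.mul hb)
  have h3 : Prim (fun r => (x2 G c r - (l ^ 2)⁻¹ * (yy p c r * yy p c r)) *
      ((bb r)⁻¹ * (bb r)⁻¹)) (fun _ => 0) α ω := by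
    refine prim_ae h2 h.Pae fun t _ ht => ?_
    unfold nu
    ring
  have h4 := h3.const_of_zero ht
  simpa only [sq (yy p c t), sq (yy p c ω)] using h4

/-- `H X - M X` -/
noncomputable def Hm (l : ℝ) (g b : K → ℝ → E) (v : ℝ → E) (bb bb' : ℝ → ℝ) (c : K → ℝ → ℝ)
    (r : ℝ) : E :=
  ∑ i, c i r • b i r - MX (mu bb bb' r) (nu l (mu bb bb') r) (∑ i, c i r • g i r) (v r)

/-- `⟨H X - M X, X⟩` -/
noncomputable def zz (l : ℝ) (g b : K → ℝ → E) (v : ℝ → E) (bb bb' : ℝ → ℝ) (c : K → ℝ → ℝ)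
    (r : ℝ) : ℝ :=
  ⟪Hm l g b v bb bb' c r, ∑ i, c i r • g i r⟫_ℝ

theorem loc_ineq [DecidableEq K] (h : Loc κ l g a b v G p P α ω)
    (hm : H761.Model (κ * l ^ 2) 1 bb bb')
    (h1 : ω < 1) (hc : ∀ i, Prim (c i) (c' i) α ω) (hD : Par l g a v bb bb' P α ω c c')
    {s t : ℝ} (hs : s ∈ P) (ht : t ∈ P) (hαs : α ≤ s) (hst : s < t) (htω : t ≤ ω) :
    IntervalIntegrable (fun r => ‖Hm l g b v bb bb' c r‖ ^ 2) volume s t ∧
    zz l g b v bb bb' c t - zz l g b v bb bb' c s ≤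
      -∫ r in s..t, ‖Hm l g b v bb bb' c r‖ ^ 2 := by
  set μ := mu bb bb' with hμ
  set L := (l ^ 2)⁻¹ with hL
  have hPae : ∀ᵐ r, r ∈ Ioo s t → r ∈ P := by
    filter_upwards [h.Pae] with r hr h2
    exact hr ⟨hαs.trans_lt h2.1, h2.2.trans_le htω⟩
  have hS : ∀ r ∈ P, ∀ i j, ⟪b i r, g j r⟫_ℝ = ⟪b j r, g i r⟫_ℝ := fun r hr i j => by
    rw [h.symm r hr, real_inner_comm]
  -- the chain inequality
  obtain ⟨hΨi, hΨ⟩ := quad_chain (K := K) (P := P) (α := s) (β := t)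
    (S := fun i j r => ⟪b i r, g j r⟫_ℝ) (Q := fun i j r => Qf κ l g a b v i j r)
    (c := c) (c' := c')
    (denseIn_of_ae hPae) hPae hs ht hst.le
    (fun s' hs' t' ht' k1 k2 k3 ζ => h.ric s' hs' t' ht' (hαs.trans k1) k2 (k3.trans htω) ζ)
    (fun r hr _ _ i j => hS r hr i j) (fun i j r => Qf_symm κ l g a b v i j r)
    (fun i j => ii_sub (h.Qi i j) hαs hst.le htω) (fun i j => ii_sub (h.Si i j) hαs hst.le htω)
    (fun i => (hc i).mono hαs hst.le htω)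
  -- the model part
  have hyP := (prim_yy h hc hD).mono hαs hst.le htω
  have hxP := (prim_x2 h hc hD).mono hαs hst.le htω
  have hmP := prim_mu hm (h.α0.trans_le hαs) hst.le (htω.trans_lt h1)
  have hiP := prim_inv (h.α0.trans_le hαs) hst.le
  have hz2 := (hmP.mul hxP).add (((hiP.sub hmP).const_mul L).mul (hyP.mul hyP))
  -- values
  have ez : ∀ r ∈ P, zz l g b v bb bb' c r =
      ∑ i, ∑ j, c i r * c j r * ⟪b i r, g j r⟫_ℝ -
      (μ r * x2 G c r + L * (1 / r - μ r) * (yy p c r * yy p c r)) := by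
    intro r hr
    rw [bil (fun i => c i r) (fun i => c i r), x2_eq h hr, yy_eq h hr, zz, Hm, inner_sub_left,
      inner_MX, nu]
    ring
  have e2 := hz2.sub_eq (s := s) (t := t) ⟨le_rfl, hst.le⟩ ⟨hst.le, le_rfl⟩
  -- the difference of the integrands
  have key : ∀ r ∈ P, r ∈ Icc s t →
      (∑ i, ∑ j, (c i r * c j r * Qf κ l g a b v i j r + 2 * c' i r * c j r * ⟪b i r, g j r⟫_ℝ)) -
      ((-(κ * l ^ 2) - mu bb bb' r ^ 2) * x2 G c r + mu bb bb' r *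
        (2 * (mu bb bb' r * x2 G c r + nu l (mu bb bb') r * yy p c r ^ 2)) +
        (L * (-(1 / r ^ 2) - (-(κ * l ^ 2) - mu bb bb' r ^ 2)) * (yy p c r * yy p c r) +
        L * (1 / r - mu bb bb' r) * (yy p c r * (1 / r) * yy p c r + yy p c r * (yy p c r * (1 / r)))))
      = -‖Hm l g b v bb bb' c r‖ ^ 2 := by
    intro r hr hrI
    have f1 : ∑ i, ∑ j, (c i r * c j r * Qf κ l g a b v i j r +
        2 * c' i r * c j r * ⟪b i r, g j r⟫_ℝ) =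
        ∑ i, ∑ j, c i r * c j r * Qf κ l g a b v i j r +
        2 * ∑ i, ∑ j, c' i r * c j r * ⟪g i r, b j r⟫_ℝ := by
      simp only [Finset.mul_sum, ← Finset.sum_add_distrib]
      refine Finset.sum_congr rfl fun i _ => Finset.sum_congr rfl fun j _ => ?_
      rw [h.symm r hr i j]
      ring
    have f2 := quadQ κ l g a b v r (fun i => c i r)
    have f3 := bil (fun i => c' i r) (fun i => c i r) (fun i => g i r) (fun i => b i r)
    have f4 := hD r hr ⟨hαs.trans hrI.1, hrI.2.trans htω⟩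
    rw [f1, f2, f3, f4, x2_eq h hr, yy_eq h hr, inner_sub_left, Hm, norm_sub_sq_real,
      norm_MX, h.vn r hr, real_inner_comm (∑ i, c i r • b i r) (∑ i, c i r • a i r),
      real_inner_comm (∑ i, c i r • b i r) (MX _ _ _ _)]
    have e2 := rel (l := l) (x := ∑ i, c i r • g i r) (h.vn r hr)
    simp only [nu]
    simp only [← hL] at e2 ⊢
    linear_combination (-(κ * ⟪∑ i, c i r • g i r, v r⟫_ℝ) +
      (1 / r - mu bb bb' r) ^ 2 * L * ⟪∑ i, c i r • g i r, v r⟫_ℝ) * e2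
  have hae : ∀ᵐ r, r ∈ Ι s t →
      (∑ i, ∑ j, (c i r * c j r * Qf κ l g a b v i j r + 2 * c' i r * c j r * ⟪b i r, g j r⟫_ℝ)) -
      ((-(κ * l ^ 2) - mu bb bb' r ^ 2) * x2 G c r + mu bb bb' r *
        (2 * (mu bb bb' r * x2 G c r + nu l (mu bb bb') r * yy p c r ^ 2)) +
        (L * (-(1 / r ^ 2) - (-(κ * l ^ 2) - mu bb bb' r ^ 2)) * (yy p c r * yy p c r) +
        L * (1 / r - mu bb bb' r) * (yy p c r * (1 / r) * yy p c r + yy p c r * (yy p c r * (1 / r)))))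
      = -‖Hm l g b v bb bb' c r‖ ^ 2 := by
    filter_upwards [hPae, Measure.ae_ne volume t] with r hr hne h2
    rw [uIoc_of_le hst.le] at h2
    exact key r (hr ⟨h2.1, lt_of_le_of_ne h2.2 hne⟩) ⟨h2.1.le, h2.2⟩
  have hint := hΨi.sub hz2.int
  have hint2 : IntervalIntegrable (fun r => -‖Hm l g b v bb bb' c r‖ ^ 2) volume s t := by
    refine hint.congr_ae ?_
    rw [Filter.EventuallyEq, ae_restrict_iff' measurableSet_uIoc]
    exact hae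
  have hint3 : IntervalIntegrable (fun r => ‖Hm l g b v bb bb' c r‖ ^ 2) volume s t := by
    have := hint2.neg
    simpa only [Pi.neg_def, neg_neg] using this
  refine ⟨hint3, ?_⟩
  rw [← intervalIntegral.integral_neg, ← intervalIntegral.integral_congr_ae hae,
    intervalIntegral.integral_sub hΨi hz2.int, ← e2, ez t ht, ez s hs]
  linarith

/-- the constant in `|X|² ≤ C t²` -/
noncomputable def Cc (l C₁ w ω x y : ℝ) : ℝ :=
  (x - (l ^ 2)⁻¹ * y ^ 2) * (w⁻¹ * w⁻¹) * C₁ ^ 2 + (l ^ 2)⁻¹ * (y * (1 / ω)) ^ 2 + 1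

theorem norm_le (h : Loc κ l g a b v G p P α ω) (hm : H761.Model (κ * l ^ 2) 1 bb bb')
    (h1 : ω < 1) (hc : ∀ i, Prim (c i) (c' i) α ω) (hD : Par l g a v bb bb' P α ω c c')
    {C₁ : ℝ} (hC₁ : ∀ t ∈ Ioo (0 : ℝ) 1, bb t ≤ C₁ * t) {t : ℝ} (ht : t ∈ P) (htI : t ∈ Icc α ω) :
    ‖∑ i, c i t • g i t‖ ^ 2 ≤ Cc l C₁ (bb ω) ω (‖∑ i, c i ω • g i ω‖ ^ 2)
      ⟪∑ i, c i ω • g i ω, v ω⟫_ℝ * t ^ 2 := by
  have ht0 : 0 < t := h.α0.trans_le htI.1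
  have htI' : t ∈ Ioo (0 : ℝ) 1 := ⟨ht0, htI.2.trans_lt h1⟩
  have hbt := hm.pos t htI'
  have e1 := yy_form h hc hD htI
  have e2 := nn_form h hm h1 hc hD htI
  rw [← x2_eq h ht, ← x2_eq h h.hω, ← yy_eq h h.hω]
  have hn : 0 ≤ x2 G c ω - (l ^ 2)⁻¹ * yy p c ω ^ 2 := by
    rw [x2_eq h h.hω, yy_eq h h.hω]
    by_cases hl : l = 0
    · simp [hl]
    · have hl2 : 0 < l ^ 2 := by positivity
      have k1 := abs_real_inner_le_norm (∑ i, c i ω • g i ω) (v ω)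
      rw [h.vn ω h.hω] at k1
      have k2 : ⟪∑ i, c i ω • g i ω, v ω⟫_ℝ ^ 2 ≤ (‖∑ i, c i ω • g i ω‖ * l) ^ 2 := by
        rw [← sq_abs]
        exact pow_le_pow_left₀ (abs_nonneg _) k1 2
      rw [mul_pow] at k2
      have k3 : (l ^ 2)⁻¹ * ⟪∑ i, c i ω • g i ω, v ω⟫_ℝ ^ 2 ≤ ‖∑ i, c i ω • g i ω‖ ^ 2 := by
        rw [inv_mul_le_iff₀ hl2]
        linarith
      linarith
  have e3 : x2 G c t - (l ^ 2)⁻¹ * yy p c t ^ 2 =
      (x2 G c ω - (l ^ 2)⁻¹ * yy p c ω ^ 2) * ((bb ω)⁻¹ * (bb ω)⁻¹) * bb t ^ 2 := by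
    rw [← e2]
    field_simp
  have e4 : yy p c t ^ 2 = (yy p c ω * (1 / ω)) ^ 2 * t ^ 2 := by
    rw [← e1]
    field_simp
  have e5 : bb t ^ 2 ≤ C₁ ^ 2 * t ^ 2 := by
    rw [← mul_pow]
    exact pow_le_pow_left₀ hbt.le (hC₁ t htI') 2
  have e6 := mul_le_mul_of_nonneg_left e5
    (mul_nonneg hn (mul_self_nonneg ((bb ω)⁻¹)))
  have e7 : x2 G c t = (x2 G c ω - (l ^ 2)⁻¹ * yy p c ω ^ 2) * ((bb ω)⁻¹ * (bb ω)⁻¹) * bb t ^ 2 +
      (l ^ 2)⁻¹ * ((yy p c ω * (1 / ω)) ^ 2 * t ^ 2) := by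
    rw [← e3, ← e4]; ring
  rw [e7, Cc]
  have e8 : 0 ≤ t ^ 2 := by positivity
  nlinarith

theorem Cc_pos (h : Loc κ l g a b v G p P α ω) (hω : 0 < bb ω) (C₁ : ℝ) :
    0 < Cc l C₁ (bb ω) ω (‖∑ i, c i ω • g i ω‖ ^ 2) ⟪∑ i, c i ω • g i ω, v ω⟫_ℝ := by
  have hn : 0 ≤ ‖∑ i, c i ω • g i ω‖ ^ 2 - (l ^ 2)⁻¹ * ⟪∑ i, c i ω • g i ω, v ω⟫_ℝ ^ 2 := by
    by_cases hl : l = 0
    · simp [hl]
    · have hl2 : 0 < l ^ 2 := by positivity
      have k1 := abs_real_inner_le_norm (∑ i, c i ω • g i ω) (v ω)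
      rw [h.vn ω h.hω] at k1
      have k2 : ⟪∑ i, c i ω • g i ω, v ω⟫_ℝ ^ 2 ≤ (‖∑ i, c i ω • g i ω‖ * l) ^ 2 := by
        rw [← sq_abs]
        exact pow_le_pow_left₀ (abs_nonneg _) k1 2
      rw [mul_pow] at k2
      have k3 : (l ^ 2)⁻¹ * ⟪∑ i, c i ω • g i ω, v ω⟫_ℝ ^ 2 ≤ ‖∑ i, c i ω • g i ω‖ ^ 2 := by
        rw [inv_mul_le_iff₀ hl2]
        linarith
      linarith
  unfold Cc
  have h1 : 0 ≤ (‖∑ i, c i ω • g i ω‖ ^ 2 - (l ^ 2)⁻¹ * ⟪∑ i, c i ω • g i ω, v ω⟫_ℝ ^ 2) *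
      ((bb ω)⁻¹ * (bb ω)⁻¹) * C₁ ^ 2 :=
    mul_nonneg (mul_nonneg hn (mul_self_nonneg _)) (sq_nonneg _)
  have h2 : 0 ≤ (l ^ 2)⁻¹ * (⟪∑ i, c i ω • g i ω, v ω⟫_ℝ * (1 / ω)) ^ 2 := by positivity
  linarith

theorem loc_final [DecidableEq K] (h : Loc κ l g a b v G p P α ω)
    (hm : H761.Model (κ * l ^ 2) 1 bb bb')
    (h1 : ω < 1) (hc : ∀ i, Prim (c i) (c' i) α ω) (hD : Par l g a v bb bb' P α ω c c')
    {C₁ : ℝ} (hC₁ : ∀ t ∈ Ioo (0 : ℝ) 1, bb t ≤ C₁ * t) (hz : 0 < zz l g b v bb bb' c ω) :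
    1 / Cc l C₁ (bb ω) ω (‖∑ i, c i ω • g i ω‖ ^ 2) ⟪∑ i, c i ω • g i ω, v ω⟫_ℝ *
      (1 / α - 1 / ω) ≤ 1 / zz l g b v bb bb' c ω := by
  have hω0 : 0 < ω := h.α0.trans h.αω
  set C := Cc l C₁ (bb ω) ω (‖∑ i, c i ω • g i ω‖ ^ 2) ⟪∑ i, c i ω • g i ω, v ω⟫_ℝ with hCdef
  have hC : 0 < C := Cc_pos h (hm.pos ω ⟨hω0, h1⟩) C₁
  refine blow h.α0 h.αω (denseIn_of_ae h.Pae) h.hα h.hω hC hz ?_
  intro s hs t ht hαs hst htω hzt
  have hs0 : 0 < s := h.α0.trans_le hαs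
  obtain ⟨k1, k2⟩ := loc_ineq h hm h1 hc hD hs ht hαs hst htω
  have hinv := prim_inv hs0 hst.le
  have k3 : ∫ r in s..t, zz l g b v bb bb' c t ^ 2 / C * (1 / r ^ 2) =
      zz l g b v bb bb' c t ^ 2 / C * (1 / s - 1 / t) := by
    have := hinv.sub_eq (s := s) (t := t) ⟨le_rfl, hst.le⟩ ⟨hst.le, le_rfl⟩
    rw [intervalIntegral.integral_neg] at this
    rw [intervalIntegral.integral_const_mul]
    congr 1
    linarith
  have k4 : ∫ r in s..t, zz l g b v bb bb' c t ^ 2 / C * (1 / r ^ 2) ≤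
      ∫ r in s..t, ‖Hm l g b v bb bb' c r‖ ^ 2 := by
    have hi : IntervalIntegrable (fun r : ℝ => 1 / r ^ 2) volume s t := by
      have := hinv.int.neg
      simpa only [Pi.neg_def, neg_neg] using this
    refine intervalIntegral.integral_mono_ae_restrict hst.le (hi.const_mul _) k1 ?_
    rw [Filter.EventuallyLE, ae_restrict_iff' measurableSet_Icc]
    filter_upwards [h.Pae, Measure.ae_ne volume s, Measure.ae_ne volume t] with r hr n1 n2 hrI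
    have hsr : s < r := lt_of_le_of_ne hrI.1 (Ne.symm n1)
    have hrt : r < t := lt_of_le_of_ne hrI.2 n2
    have hr0 : 0 < r := hs0.trans hsr
    have hrP : r ∈ P := hr ⟨hαs.trans_lt hsr, hrt.trans_le htω⟩
    obtain ⟨_, m2⟩ := loc_ineq h hm h1 hc hD hrP ht (hαs.trans hsr.le) hrt htω
    have m3 : 0 ≤ ∫ x in r..t, ‖Hm l g b v bb bb' c x‖ ^ 2 :=
      intervalIntegral.integral_nonneg hrt.le fun x _ => by positivity
    have m4 : zz l g b v bb bb' c t ≤ zz l g b v bb bb' c r := by linarith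
    have m5 : zz l g b v bb bb' c t ^ 2 ≤ zz l g b v bb bb' c r ^ 2 :=
      pow_le_pow_left₀ hzt.le m4 2
    have m6 : zz l g b v bb bb' c r ^ 2 ≤
        ‖Hm l g b v bb bb' c r‖ ^ 2 * ‖∑ i, c i r • g i r‖ ^ 2 := by
      rw [zz, ← mul_pow, ← sq_abs]
      exact pow_le_pow_left₀ (abs_nonneg _) (abs_real_inner_le_norm _ _) 2
    have m7 := norm_le h hm h1 hc hD hC₁ hrP ⟨hαs.trans hsr.le, hrt.le.trans htω⟩
    have m8 : ‖Hm l g b v bb bb' c r‖ ^ 2 * ‖∑ i, c i r • g i r‖ ^ 2 ≤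
        ‖Hm l g b v bb bb' c r‖ ^ 2 * (C * r ^ 2) :=
      mul_le_mul_of_nonneg_left m7 (sq_nonneg _)
    have m9 : zz l g b v bb bb' c t ^ 2 / C * (1 / r ^ 2) =
        zz l g b v bb bb' c t ^ 2 / (C * r ^ 2) := by field_simp
    rw [m9, div_le_iff₀ (by positivity)]
    linarith
  linarith

end loc

end Vale.Agent.P233.H3
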