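import Mathlib

/-! Linear ODE with integrable coefficients (Caratheodory). -/

open MeasureTheory Set intervalIntegral Filter Topology
open scoped ENNReal NNReal Interval

namespace Vale.Agent.P233.H3

variable {V : Type*} [NormedAddCommGroup V] [NormedSpace ℝ V]

/-- the integrand is integrable -/
theorem ii_apply {a b : ℝ} {A : ℝ → V →L[ℝ] V} (hA : IntervalIntegrable A volume a b)
    {X : ℝ → V} (hX : ContinuousOn X (uIcc a b)) :
    IntervalIntegrable (fun s => A s (X s)) volume a b := by
  rw [intervalIntegrable_iff] at hA ⊢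
  have hX' : AEStronglyMeasurable X (volume.restrict (Ι a b)) :=
    (hX.mono uIoc_subset_uIcc).aestronglyMeasurable measurableSet_uIoc
  obtain ⟨C, hC⟩ := (isCompact_uIcc (a := a) (b := b)).exists_bound_of_continuousOn hX
  refine Integrable.mono' (g := fun s => ‖A s‖ * C) (hA.norm.mul_const C) ?_ ?_
  · exact (ContinuousLinearMap.id ℝ (V →L[ℝ] V)).aestronglyMeasurable_comp₂ hA.aestronglyMeasurable hX'
  · refine (ae_restrict_iff' measurableSet_uIoc).2 (ae_of_all _ fun s hs => ?_)
    exact (ContinuousLinearMap.le_opNorm _ _).trans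
      (mul_le_mul_of_nonneg_left (hC s (uIoc_subset_uIcc hs)) (norm_nonneg _))

/-- short time existence -/
theorem ode_short [CompleteSpace V] {a b : ℝ} (hab : a ≤ b) {A : ℝ → V →L[ℝ] V}
    (hA : IntervalIntegrable A volume a b) (hs : ∫ s in a..b, ‖A s‖ ≤ 1 / 2) (x₀ : V) :
    ∃ X : ℝ → V, ContinuousOn X (Icc a b) ∧
      ∀ t ∈ Icc a b, X t = x₀ + ∫ s in a..t, A s (X s) := by
  have hcont : ∀ X : C(Icc a b, V), Continuous (IccExtend hab X) := fun X =>
    X.continuous.Icc_extend'
  have hint : ∀ (X : C(Icc a b, V)) (t : ℝ), t ∈ Icc a b →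
      IntervalIntegrable (fun s => A s (IccExtend hab X s)) volume a t := fun X t ht => by
    refine ii_apply (hA.mono_set ?_) (hcont X).continuousOn
    rw [uIcc_of_le hab, uIcc_of_le ht.1]
    exact Icc_subset_Icc_right ht.2
  have hprim : ∀ X : C(Icc a b, V),
      ContinuousOn (fun t => x₀ + ∫ s in a..t, A s (IccExtend hab X s)) (Icc a b) := fun X => by
    have := intervalIntegral.continuousOn_primitive_interval' (hint X b (right_mem_Icc.2 hab))
      (a := a) left_mem_uIcc
    rw [uIcc_of_le hab] at this
    exact continuousOn_const.add this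
  have hprim' : ∀ X : C(Icc a b, V), Continuous
      (fun t : Icc a b => x₀ + ∫ s in a..(t : ℝ), A s (IccExtend hab X s)) := fun X =>
    (hprim X).comp_continuous continuous_subtype_val fun t => t.2
  let T : C(Icc a b, V) → C(Icc a b, V) := fun X =>
    ⟨fun t => x₀ + ∫ s in a..(t : ℝ), A s (IccExtend hab X s), hprim' X⟩
  have hT : ContractingWith (1 / 2) T := by
    refine ⟨by norm_num, LipschitzWith.of_dist_le_mul fun X Y => ?_⟩
    rw [ContinuousMap.dist_le (by positivity)]
    intro t
    have e : T X t - T Y t = ∫ s in a..(t : ℝ), A s (IccExtend hab X s - IccExtend hab Y s) := by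
      change (x₀ + ∫ s in a..(t : ℝ), A s (IccExtend hab X s)) -
        (x₀ + ∫ s in a..(t : ℝ), A s (IccExtend hab Y s)) = _
      rw [add_sub_add_left_eq_sub, ← intervalIntegral.integral_sub (hint X t t.2) (hint Y t t.2)]
      exact intervalIntegral.integral_congr fun s _ => by simp
    rw [dist_eq_norm, e]
    have h1 : ‖∫ s in a..(t : ℝ), A s (IccExtend hab X s - IccExtend hab Y s)‖ ≤
        ∫ s in a..(t : ℝ), ‖A s‖ * dist X Y := by
      refine intervalIntegral.norm_integral_le_of_norm_le t.2.1 (ae_of_all _ fun s _ => ?_) ?_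
      · refine (ContinuousLinearMap.le_opNorm _ _).trans
          (mul_le_mul_of_nonneg_left ?_ (norm_nonneg _))
        rw [← dist_eq_norm]
        exact ContinuousMap.dist_apply_le_dist _
      · refine (hA.norm.mul_const _).mono_set ?_
        rw [uIcc_of_le hab, uIcc_of_le t.2.1]
        exact Icc_subset_Icc_right t.2.2
    refine h1.trans ?_
    rw [intervalIntegral.integral_mul_const]
    refine mul_le_mul_of_nonneg_right ?_ dist_nonneg
    have h2 : ∫ s in a..(t : ℝ), ‖A s‖ ≤ ∫ s in a..b, ‖A s‖ :=
      intervalIntegral.integral_mono_interval le_rfl t.2.1 t.2.2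
        (ae_of_all _ fun s => norm_nonneg _) hA.norm
    simpa using h2.trans hs
  have : Nonempty C(Icc a b, V) := ⟨0⟩
  have hfix := hT.fixedPoint_isFixedPt
  set X := hT.fixedPoint T with hX
  refine ⟨IccExtend hab X, (hcont X).continuousOn, fun t ht => ?_⟩
  have h3 := congrArg (fun f : C(Icc a b, V) => f ⟨t, ht⟩) hfix
  rw [IccExtend_of_mem hab X ht]
  exact h3.symm

/-- global existence -/
theorem ode_exists [CompleteSpace V] {a b : ℝ} (hab : a ≤ b) {A : ℝ → V →L[ℝ] V}
    (hA : IntervalIntegrable A volume a b) (x₀ : V) :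
    ∃ X : ℝ → V, ContinuousOn X (Icc a b) ∧
      ∀ t ∈ Icc a b, X t = x₀ + ∫ s in a..t, A s (X s) := by
  obtain ⟨N, hN⟩ := exists_nat_ge (2 * ∫ s in a..b, ‖A s‖)
  replace hN : ∫ s in a..b, ‖A s‖ ≤ N / 2 := by linarith
  induction N generalizing b with
  | zero => exact ode_short hab hA (by simp at hN; linarith) x₀
  | succ N ih =>
    have hcp : ContinuousOn (fun t => ∫ s in a..t, ‖A s‖) (Icc a b) := by
      have := intervalIntegral.continuousOn_primitive_interval' hA.norm (a := a) left_mem_uIcc
      rwa [uIcc_of_le hab] at this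
    by_cases hle : ∫ s in a..b, ‖A s‖ ≤ N / 2
    · exact ih hab hA hle
    push Not at hle
    obtain ⟨c, hc, hc2⟩ : (N : ℝ) / 2 ∈ (fun t => ∫ s in a..t, ‖A s‖) '' Icc a b :=
      intermediate_value_Icc hab hcp ⟨by simp; positivity, hle.le⟩
    have hA1 : IntervalIntegrable A volume a c := hA.mono_set (by
      rw [uIcc_of_le hab, uIcc_of_le hc.1]; exact Icc_subset_Icc_right hc.2)
    have hA2 : IntervalIntegrable A volume c b := hA.mono_set (by
      rw [uIcc_of_le hab, uIcc_of_le hc.2]; exact Icc_subset_Icc_left hc.1)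
    obtain ⟨X, hXc, hX⟩ := ih hc.1 hA1 hc2.le
    have hsm : ∫ s in c..b, ‖A s‖ ≤ 1 / 2 := by
      have := intervalIntegral.integral_add_adjacent_intervals hA1.norm hA2.norm
      simp only at hc2
      push_cast at hN
      linarith
    obtain ⟨Y, hYc, hY⟩ := ode_short hc.2 hA2 hsm (X c)
    have hYX : Y c = X c := by
      have := hY c (left_mem_Icc.2 hc.2)
      simpa using this
    have e1 : ∀ t ∈ Icc a c, (fun t => if t ≤ c then X t else Y t) t = X t := fun t ht => by
      simp [ht.2]
    have e2 : ∀ t ∈ Icc c b, (fun t => if t ≤ c then X t else Y t) t = Y t := fun t ht => by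
      rcases ht.1.eq_or_lt with h | h
      · subst h; simp [hYX]
      · simp [not_le.2 h]
    refine ⟨fun t => if t ≤ c then X t else Y t, ?_, fun t ht => ?_⟩
    · rw [← Icc_union_Icc_eq_Icc hc.1 hc.2]
      exact (hXc.congr e1).union_of_isClosed (hYc.congr e2) isClosed_Icc isClosed_Icc
    · rcases le_total t c with h | h
      · rw [e1 t ⟨ht.1, h⟩, hX t ⟨ht.1, h⟩]
        congr 1
        refine intervalIntegral.integral_congr fun s hs => ?_
        rw [uIcc_of_le ht.1] at hs
        simp [hs.2.trans h]
      · rw [e2 t ⟨h, ht.2⟩, hY t ⟨h, ht.2⟩]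
        have hi1 : IntervalIntegrable (fun s => A s ((fun t => if t ≤ c then X t else Y t) s)) volume a c := by
          refine ii_apply hA1 ?_
          rw [uIcc_of_le hc.1]
          exact hXc.congr e1
        have hi2 : IntervalIntegrable (fun s => A s ((fun t => if t ≤ c then X t else Y t) s)) volume c t := by
          refine ii_apply (hA2.mono_set ?_) ?_
          · rw [uIcc_of_le hc.2, uIcc_of_le h]; exact Icc_subset_Icc_right ht.2
          · rw [uIcc_of_le h]
            exact (hYc.congr e2).mono (Icc_subset_Icc_right ht.2)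
        rw [← intervalIntegral.integral_add_adjacent_intervals hi1 hi2, hX c ⟨hc.1, le_rfl⟩, add_assoc]
        congr 2
        · refine intervalIntegral.integral_congr fun s hs => ?_
          rw [uIcc_of_le hc.1] at hs
          simp [hs.2]
        · refine intervalIntegral.integral_congr fun s hs => ?_
          rw [uIcc_of_le h] at hs
          have := e2 s ⟨hs.1, hs.2.trans ht.2⟩
          simp only at this ⊢
          rw [this]

/-- terminal value problem -/
theorem ode_back [CompleteSpace V] {a b : ℝ} (hab : a ≤ b) {A : ℝ → V →L[ℝ] V}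
    (hA : IntervalIntegrable A volume a b) (x₁ : V) :
    ∃ X : ℝ → V, ContinuousOn X (Icc a b) ∧
      ∀ t ∈ Icc a b, X t = x₁ - ∫ s in t..b, A s (X s) := by
  have hA' : IntervalIntegrable (fun s => -A (a + b - s)) volume a b := by
    have := (hA.comp_sub_left (a + b)).symm
    simp only [add_sub_cancel_left, add_sub_cancel_right] at this
    exact this.neg
  obtain ⟨Y, hYc, hY⟩ := ode_exists hab hA' x₁
  refine ⟨fun t => Y (a + b - t), ?_, fun t ht => ?_⟩
  · refine hYc.comp (by fun_prop) fun t ht => ⟨by linarith [ht.2], by linarith [ht.1]⟩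
  · change Y (a + b - t) = x₁ - ∫ s in t..b, A s (Y (a + b - s))
    rw [hY (a + b - t) ⟨by linarith [ht.2], by linarith [ht.1]⟩]
    have := intervalIntegral.integral_comp_sub_left
      (fun s => A s (Y (a + b - s))) (a + b) (a := a) (b := a + b - t)
    simp only [sub_sub_cancel, add_sub_cancel_left] at this
    simp only [_root_.neg_apply, intervalIntegral.integral_neg]
    rw [this]
    abel

end Vale.Agent.P233.H3
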