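import Vale.Agent.P233.H3.Ode

/-! Primitives of integrable real functions: calculus rules. -/

open MeasureTheory Set intervalIntegral Filter Topology
open scoped ENNReal NNReal Interval

namespace Vale.Agent.P233.H3

/-- `F` is absolutely continuous on `[a,b]` with derivative `f` -/
structure Prim (F f : ℝ → ℝ) (a b : ℝ) : Prop where
  le : a ≤ b
  int : IntervalIntegrable f volume a b
  eq : ∀ t ∈ Icc a b, F t = F a + ∫ s in a..t, f s

variable {F f G g : ℝ → ℝ} {a b : ℝ}

theorem ii_sub {f : ℝ → ℝ} {a b c d : ℝ} (h : IntervalIntegrable f volume a b) (h1 : a ≤ c)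
    (h2 : c ≤ d) (h3 : d ≤ b) : IntervalIntegrable f volume c d :=
  h.mono_set (by
    rw [uIcc_of_le (h1.trans (h2.trans h3)), uIcc_of_le h2]; exact Icc_subset_Icc h1 h3)

namespace Prim

theorem sub_eq (h : Prim F f a b) {s t : ℝ} (hs : s ∈ Icc a b) (ht : t ∈ Icc a b) :
    F t - F s = ∫ r in s..t, f r := by
  rw [h.eq t ht, h.eq s hs]
  rw [← intervalIntegral.integral_interval_sub_left (a := a) (b := t) (c := s)
    (ii_sub h.int le_rfl ht.1 ht.2) (ii_sub h.int le_rfl hs.1 hs.2)]
  ring

theorem mono (h : Prim F f a b) {c d : ℝ} (h1 : a ≤ c) (h2 : c ≤ d) (h3 : d ≤ b) :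
    Prim F f c d := by
  refine ⟨h2, ii_sub h.int h1 h2 h3, fun t ht => ?_⟩
  have := h.sub_eq (s := c) (t := t) ⟨h1, h2.trans h3⟩ ⟨h1.trans ht.1, ht.2.trans h3⟩
  linarith

theorem congr_ae (h : Prim F f a b) {f' : ℝ → ℝ} (hf : ∀ᵐ t, t ∈ Icc a b → f t = f' t) :
    Prim F f' a b := by
  refine ⟨h.le, h.int.congr_ae ?_, fun t ht => ?_⟩
  · rw [Filter.EventuallyEq, ae_restrict_iff' measurableSet_uIoc]
    filter_upwards [hf] with t ht h1
    have h2 := uIoc_subset_uIcc h1
    rw [uIcc_of_le h.le] at h2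
    exact ht h2
  · rw [h.eq t ht]
    congr 1
    refine intervalIntegral.integral_congr_ae ?_
    filter_upwards [hf] with s hs h1
    rw [uIoc_of_le ht.1] at h1
    exact hs ⟨h1.1.le, h1.2.trans ht.2⟩

theorem congr (h : Prim F f a b) {F' : ℝ → ℝ} (hF : ∀ t ∈ Icc a b, F t = F' t) :
    Prim F' f a b := by
  refine ⟨h.le, h.int, fun t ht => ?_⟩
  rw [← hF t ht, ← hF a (left_mem_Icc.2 h.le)]
  exact h.eq t ht

theorem const (hab : a ≤ b) (c : ℝ) : Prim (fun _ => c) (fun _ => 0) a b :=
  ⟨hab, by simp, fun t ht => by simp⟩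

theorem add (h : Prim F f a b) (h' : Prim G g a b) :
    Prim (fun t => F t + G t) (fun t => f t + g t) a b := by
  refine ⟨h.le, h.int.add h'.int, fun t ht => ?_⟩
  rw [intervalIntegral.integral_add (ii_sub h.int le_rfl ht.1 ht.2) (ii_sub h'.int le_rfl ht.1 ht.2),
    h.eq t ht, h'.eq t ht]
  ring

theorem const_mul (h : Prim F f a b) (c : ℝ) :
    Prim (fun t => c * F t) (fun t => c * f t) a b := by
  refine ⟨h.le, h.int.const_mul c, fun t ht => ?_⟩
  rw [intervalIntegral.integral_const_mul, h.eq t ht]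
  ring

theorem neg (h : Prim F f a b) : Prim (fun t => -F t) (fun t => -f t) a b := by
  simpa using h.const_mul (-1)

theorem sub (h : Prim F f a b) (h' : Prim G g a b) :
    Prim (fun t => F t - G t) (fun t => f t - g t) a b := by
  simpa [sub_eq_add_neg] using h.add h'.neg

theorem sum {ι : Type*} (s : Finset ι) {F f : ι → ℝ → ℝ} (hab : a ≤ b)
    (h : ∀ i ∈ s, Prim (F i) (f i) a b) :
    Prim (fun t => ∑ i ∈ s, F i t) (fun t => ∑ i ∈ s, f i t) a b := by
  classical
  induction s using Finset.induction_on with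
  | empty => simpa using Prim.const hab 0
  | insert i s hi ih =>
    simp only [Finset.sum_insert hi]
    exact (h i (Finset.mem_insert_self i s)).add
      (ih fun j hj => h j (Finset.mem_insert_of_mem hj))

theorem continuousOn (h : Prim F f a b) : ContinuousOn F (Icc a b) := by
  have := intervalIntegral.continuousOn_primitive_interval' h.int (a := a) left_mem_uIcc
  rw [uIcc_of_le h.le] at this
  exact (continuousOn_const.add this).congr h.eq

theorem ac (h : Prim F f a b) :
    AbsolutelyContinuousOnInterval (fun t => F a + ∫ s in a..t, f s) a b := by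
  have h1 : AbsolutelyContinuousOnInterval (fun _ : ℝ => F a) a b :=
    (LipschitzWith.const (F a)).lipschitzOnWith.absolutelyContinuousOnInterval
  exact h1.add (h.int.absolutelyContinuousOnInterval_intervalIntegral (c := a) left_mem_uIcc)

theorem ae_deriv (h : Prim F f a b) :
    ∀ᵐ t, t ∈ uIcc a b → HasDerivAt (fun t => F a + ∫ s in a..t, f s) (f t) t := by
  filter_upwards [h.int.ae_hasDerivAt_integral] with t ht h1
  exact (ht h1 a left_mem_uIcc).const_add _

theorem mul (h : Prim F f a b) (h' : Prim G g a b) :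
    Prim (fun t => F t * G t) (fun t => f t * G t + F t * g t) a b := by
  have hF := h.continuousOn
  have hG := h'.continuousOn
  have hi : IntervalIntegrable (fun t => f t * G t + F t * g t) volume a b := by
    refine (h.int.mul_continuousOn ?_).add (h'.int.continuousOn_mul ?_)
    · rwa [uIcc_of_le h.le]
    · rwa [uIcc_of_le h.le]
  refine ⟨h.le, hi, fun t ht => ?_⟩
  have k := h.mono le_rfl ht.1 ht.2
  have k' := h'.mono le_rfl ht.1 ht.2
  have key := AbsolutelyContinuousOnInterval.integral_deriv_mul_eq_sub k.ac k'.ac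
  simp only [intervalIntegral.integral_same, add_zero] at key
  rw [← k.eq t (right_mem_Icc.2 ht.1), ← k'.eq t (right_mem_Icc.2 ht.1)] at key
  have e : ∫ s in a..t, (f s * G s + F s * g s) = F t * G t - F a * G a := by
    rw [← key]
    refine intervalIntegral.integral_congr_ae ?_
    filter_upwards [k.ae_deriv, k'.ae_deriv] with s hs hs' h1
    have h2 := uIoc_subset_uIcc h1
    rw [(hs h2).deriv, (hs' h2).deriv]
    rw [uIcc_of_le ht.1] at h2
    rw [← k.eq s h2, ← k'.eq s h2]
  rw [e]; ring

theorem of_hasDerivAt (hab : a ≤ b) (h : ∀ t ∈ Icc a b, HasDerivAt F (f t) t)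
    (hf : ContinuousOn f (Icc a b)) : Prim F f a b := by
  have hi : IntervalIntegrable f volume a b := by
    apply ContinuousOn.intervalIntegrable
    rwa [uIcc_of_le hab]
  refine ⟨hab, hi, fun t ht => ?_⟩
  rw [intervalIntegral.integral_eq_sub_of_hasDerivAt (f := F) (f' := f)]
  · ring
  · intro s hs
    rw [uIcc_of_le ht.1] at hs
    exact h s ⟨hs.1, hs.2.trans ht.2⟩
  · exact ii_sub hi le_rfl ht.1 ht.2

end Prim

end Vale.Agent.P233.H3
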